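import Vale.Agent.P328.Tab

/-! The smoothed, scaled count approximates the number of tables. -/

namespace Vale.Agent.P328

open Finset

variable {m n : ℕ}

theorem sum_div_pi {ι : Type} [Fintype ι] [DecidableEq ι] (a : ℕ) (D : ι → ℕ) (hD : ∀ e, 0 < D e)
    (f : (ι → ℕ) → ℝ) : ∑ X ∈ Fintype.piFinset fun e => range (a * D e), f (fun e => X e / D e) =
      (∏ e, D e : ℕ) * ∑ y ∈ Fintype.piFinset fun _ => range a, f y := by
  rw [← sum_fiberwise_of_maps_to (t := Fintype.piFinset fun _ => range a) (g := fun X e => X e / D e)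
    fun X hX => by
      simp only [Fintype.mem_piFinset, mem_range] at hX ⊢
      exact fun e => (Nat.div_lt_iff_lt_mul (hD e)).2 (hX e), mul_sum]
  refine sum_congr rfl fun y hy => ?_
  rw [sum_congr rfl fun X hX => by rw [(mem_filter.1 hX).2], sum_const, nsmul_eq_mul]
  congr 2
  have : ((Fintype.piFinset fun e => range (a * D e)).filter fun X => (fun e => X e / D e) = y) =
      Fintype.piFinset fun e => Ico (y e * D e) (y e * D e + D e) := by
    ext X
    simp only [mem_filter, Fintype.mem_piFinset, mem_range, mem_Ico, funext_iff, ← forall_and] at hy ⊢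
    refine forall_congr' fun e => ?_
    have : (y e + 1) * D e ≤ a * D e := Nat.mul_le_mul_right _ (hy e)
    have := hD e
    rw [Nat.div_eq_iff (hD e)]
    rw [Nat.succ_mul] at *
    omega
  rw [this, Fintype.card_piFinset]
  simp

theorem sum_div_Ico (a D lo : ℕ) (hD : 0 < D) (g : ℕ → ℝ) :
    ∑ v ∈ Ico lo (lo + a * D), g ((v - lo) / D) = D * ∑ b ∈ range a, g b := by
  induction a with
  | zero => simp
  | succ a ih =>
    rw [Nat.succ_mul, ← add_assoc, ← sum_Ico_consecutive _ (Nat.le_add_right _ _) (Nat.le_add_right _ _), ih,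
      sum_range_succ, mul_add, sum_congr (s₁ := Ico _ _) rfl (g := fun _ => g a) fun v hv => by
        rw [mem_Ico] at hv
        rw [show (v - lo) / D = a from (Nat.div_eq_iff hD).2 (by omega)]]
    simp

def inc (e : Fin m × Fin n) (u : Fin m ⊕ Fin n) : Prop := u = .inl e.1 ∨ u = .inr e.2

theorem mg_le {x c : ℕ} (hx : m + n ≤ x) {f g : Fin m × Fin n → ℕ} {u : Fin m ⊕ Fin n}
    (h : ∀ e, inc e u → f e ≤ g e + c) : mg f u ≤ mg g u + x * c := by
  rcases u with i | j
  · refine le_trans (sum_le_sum (s := univ) fun j _ => h (i, j) (Or.inl rfl)) ?_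
    simp only [mg, sum_add_distrib, sum_const, card_univ, Fintype.card_fin, smul_eq_mul, Sum.elim_inl]
    exact Nat.add_le_add_left (Nat.mul_le_mul_right _ (by omega)) _
  · refine le_trans (sum_le_sum (s := univ) fun i _ => h (i, j) (Or.inr rfl)) ?_
    simp only [mg, sum_add_distrib, sum_const, card_univ, Fintype.card_fin, smul_eq_mul, Sum.elim_inr]
    exact Nat.add_le_add_left (Nat.mul_le_mul_right _ (by omega)) _

theorem mg_congr {f g : Fin m × Fin n → ℕ} {u : Fin m ⊕ Fin n} (h : ∀ e, inc e u → f e = g e) :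
    mg f u = mg g u :=
  le_antisymm (mg_le (c := 0) le_rfl fun e he => (h e he).le) (mg_le (c := 0) le_rfl fun e he => (h e he).ge)

theorem mg_mul (c : ℕ) (f : Fin m × Fin n → ℕ) (u : Fin m ⊕ Fin n) :
    mg (fun e => c * f e) u = c * mg f u := by
  cases u <;> simp [mg, mul_sum]

theorem le_mg {X : Fin m × Fin n → ℕ} {e : Fin m × Fin n} {u : Fin m ⊕ Fin n} (h : inc e u) :
    X e ≤ mg X u := by
  rcases h with rfl | rfl
  exacts [le_mg_l X e, le_mg_r X e]

theorem close_zpow {ε : ℝ} (h0 : 0 ≤ ε) (h1 : ε ≤ 1 / 2) {a b : ℤ} {N : ℕ} (h : |a - b| ≤ N) :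
    Close (2 * ε * N) ((1 - ε) ^ a) ((1 - ε) ^ b) := by
  have hp : 0 < 1 - ε := by linarith
  have key : ∀ a b : ℤ, b - a ≤ N → (1 - ε) ^ a ≤ Real.exp (2 * ε * N) * (1 - ε) ^ b := by
    intro a b hab
    have e1 : 1 ≤ Real.exp (2 * ε) * (1 - ε) := by nlinarith [Real.add_one_le_exp (2 * ε)]
    have e2 := one_le_pow₀ (n := N) e1
    rw [mul_pow, ← Real.exp_nat_mul, mul_comm (N : ℝ)] at e2
    have e3 : (1 - ε) ^ (a + N) ≤ (1 - ε) ^ b :=
      zpow_le_zpow_right_of_le_one₀ hp (by linarith) (by linarith)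
    rw [zpow_add₀ hp.ne', zpow_natCast] at e3
    have e4 := zpow_pos hp a
    nlinarith [mul_le_mul_of_nonneg_left e3 (Real.exp_pos (2 * ε * N)).le]
  rw [abs_le] at h
  exact ⟨key a b (by linarith), key b a (by linarith)⟩

theorem Close.sum {ι : Type} {T : Finset ι} {c : ℝ} {a b : ι → ℝ} (h : ∀ i ∈ T, Close c (a i) (b i)) :
    Close c (∑ i ∈ T, a i) (∑ i ∈ T, b i) := by
  simp only [Close, mul_sum]
  exact ⟨sum_le_sum fun i hi => (h i hi).1, sum_le_sum fun i hi => (h i hi).2⟩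

theorem Close.mul_right {c a b d : ℝ} (h : Close c a b) (hd : 0 ≤ d) : Close c (a * d) (b * d) := by
  simp only [Close, ← mul_assoc]
  exact ⟨mul_le_mul_of_nonneg_right h.1 hd, mul_le_mul_of_nonneg_right h.2 hd⟩

theorem prod_zpow {ι : Type} (T : Finset ι) {a : ℝ} (ha : a ≠ 0) (f : ι → ℤ) :
    ∏ i ∈ T, a ^ f i = a ^ ∑ i ∈ T, f i := by
  classical
  induction T using Finset.induction_on with
  | empty => simp
  | insert i T h ih => rw [prod_insert h, sum_insert h, ih, zpow_add₀ ha]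

theorem arith_in {K D R x a s b r : ℕ} {w : ℤ} (k0 : 0 < K) (d5 : 0 < D) (d7 : r < D) (d8 : b < 2 * R + 1)
    (d9 : a + R * D = s + (D * b + r)) (d1 : (K : ℤ) * (a - s) ≤ D * w + x * (2 * K * D))
    (d2 : D * w ≤ (K : ℤ) * (a - s) + D) :
    |w ^ 2 - (K : ℤ) ^ 2 * ((b : ℤ) - R) ^ 2| ≤ (K : ℤ) ^ 2 * ((2 * x + 2) * (2 * R + (2 * x + 2))) := by
  zify at d5 d7 d8 d9 k0
  have k1 : (0 : ℤ) ≤ r := by positivity
  have k2 : (0 : ℤ) ≤ b := by positivity
  have k3 : (0 : ℤ) ≤ x := by positivity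
  have g1 : K * ((b : ℤ) - R) - K * (2 * x + 2) ≤ w := le_of_mul_le_mul_left (by nlinarith) d5
  have g2 : w ≤ K * ((b : ℤ) - R) + K * (2 * x + 2) :=
    le_of_mul_le_mul_left (by nlinarith [mul_pos k0 d5, mul_nonneg (mul_pos k0 d5).le k3]) d5
  have g3 : |w - K * ((b : ℤ) - R)| ≤ K * (2 * x + 2) := abs_le.2 ⟨by linarith, by linarith⟩
  have g4 : |w + K * ((b : ℤ) - R)| ≤ K * (2 * R + (2 * x + 2)) := abs_le.2 ⟨by nlinarith, by nlinarith⟩
  rw [show w ^ 2 - (K : ℤ) ^ 2 * ((b : ℤ) - R) ^ 2 =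
    (w - K * ((b : ℤ) - R)) * (w + K * ((b : ℤ) - R)) by ring, abs_mul]
  exact (mul_le_mul g3 g4 (abs_nonneg _) (by positivity)).trans (le_of_eq (by ring))

theorem arith_out {K D x a s q : ℕ} {w : ℤ} (k0 : 0 < K) (d5 : 0 < D)
    (d6 : a + (2 * x + 2 + q) * D < s ∨ s + (2 * x + 2 + q + 1) * D ≤ a)
    (d1 : (K : ℤ) * (a - s) ≤ D * w + x * (2 * K * D)) (d2 : D * w ≤ (K : ℤ) * (a - s) + D) :
    ((K ^ 2 * q ^ 2 : ℕ) : ℤ) ≤ w ^ 2 := by
  zify at d5 d6 k0
  push_cast
  have k3 : (0 : ℤ) ≤ x := by positivity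
  rw [← mul_pow, sq_le_sq, abs_of_nonneg (by positivity), le_abs]
  rcases d6 with d6 | d6
  · exact Or.inr (le_of_mul_le_mul_left (by
      nlinarith [mul_pos k0 d5, mul_nonneg (mul_pos k0 d5).le k3]) d5)
  · exact Or.inl (le_of_mul_le_mul_left (by nlinarith [mul_pos k0 d5]) d5)

structure Tb (m n : ℕ) where
  o : Fin m
  s : Fin m ⊕ Fin n → ℕ
  D : Fin m ⊕ Fin n → ℕ
  sf : Fin m ⊕ Fin n → Bool
  De : Fin m × Fin n → ℕ
  K : ℕ
  R : ℕ

namespace Tb

variable (T : Tb m n)

def W (u : Fin m ⊕ Fin n) : ℕ := if T.sf u then (T.R + 1) * T.D u else 0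

def t (y : Fin m × Fin n → ℕ) (u : Fin m ⊕ Fin n) : ℤ :=
  if T.sf u then (mg (fun e => T.K * T.De e / T.D u * y e) u : ℤ) - (T.K * T.s u / T.D u : ℕ) else 0

def Ex (y : Fin m × Fin n → ℕ) : Prop := ∀ u, u ≠ .inl T.o → T.sf u = false → mg y u = T.s u

open Classical in
noncomputable def f (ε : ℝ) (cv : (Fin m × Fin n → ℕ) → ℤ) (y : Fin m × Fin n → ℕ) : ℝ :=
  if T.Ex y then (1 - ε) ^ (cv y + ∑ u, T.t y u ^ 2) else 0

noncomputable def Γ (ε : ℝ) : ℝ := ∑ b ∈ range (2 * T.R + 1), (1 - ε) ^ ((T.K : ℤ) ^ 2 * ((b : ℤ) - T.R) ^ 2)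

structure OK (x : ℕ) (H : Fin m ⊕ Fin n → ℕ) : Prop where
  hx : m + n ≤ x
  K0 : 0 < T.K
  bal : ∑ i, T.s (.inl i) = ∑ j, T.s (.inr j)
  so : T.sf (.inl T.o) = false
  D0 : ∀ u, 0 < T.D u
  De0 : ∀ e, 0 < T.De e
  le : ∀ e u, inc e u → T.sf u = true → T.De e ≤ T.D u
  ex1 : ∀ e u, inc e u → u ≠ .inl T.o → T.sf u = false → T.De e = 1
  box : ∀ e, ∃ u, inc e u ∧ u ≠ .inl T.o ∧ T.s u + T.W u < (T.K + 1) * T.De e
  rob : ∀ u, T.sf u = true → 4 * x ^ 3 ≤ H u ∧ H u + T.W u ≤ T.s u ∧ x * H u + ∑ v, T.W v ≤ T.s (.inl T.o)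

variable {T} {x : ℕ} {H : Fin m ⊕ Fin n → ℕ}

theorem OK.est (h : T.OK x H) {X : Fin m × Fin n → ℕ} (hX : ∀ e, X e < (T.K + 1) * T.De e)
    {u : Fin m ⊕ Fin n} (hu : T.sf u = true) :
    (T.K : ℤ) * (mg X u - T.s u) ≤ T.D u * T.t (fun e => X e / T.De e) u + x * (2 * T.K * T.D u) ∧
      T.D u * T.t (fun e => X e / T.De e) u ≤ (T.K : ℤ) * (mg X u - T.s u) + T.D u := by
  have a1 : mg (fun e => T.D u * (T.K * T.De e / T.D u * (X e / T.De e))) u ≤
      mg (fun e => T.K * X e) u + x * 0 := mg_le h.hx fun e _ => by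
    rw [← mul_assoc, add_zero]
    refine (Nat.mul_le_mul_right _ (Nat.mul_div_le _ _)).trans ?_
    rw [mul_assoc]
    exact Nat.mul_le_mul_left _ (Nat.mul_div_le _ _)
  have a2 : mg (fun e => T.K * X e) u ≤
      mg (fun e => T.D u * (T.K * T.De e / T.D u * (X e / T.De e))) u + x * (2 * T.K * T.D u) :=
    mg_le h.hx fun e he => by
      have b1 : X e / T.De e ≤ T.K := Nat.lt_succ_iff.1 ((Nat.div_lt_iff_lt_mul (h.De0 e)).2 (hX e))
      have b2 := Nat.div_add_mod (X e) (T.De e)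
      have b3 := Nat.mod_lt (X e) (h.De0 e)
      have b4 := Nat.div_add_mod (T.K * T.De e) (T.D u)
      have b5 := Nat.mod_lt (T.K * T.De e) (h.D0 u)
      have b6 := h.le e u he hu
      generalize X e / T.De e = y at *
      generalize T.K * T.De e / T.D u = k at *
      have c1 : T.K * (X e % T.De e) ≤ T.K * T.D u := Nat.mul_le_mul_left _ (by omega)
      have c2 : T.K * T.De e % T.D u * y ≤ T.D u * T.K := Nat.mul_le_mul b5.le b1
      calc T.K * X e = (T.K * T.De e) * y + T.K * (X e % T.De e) := by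
            conv_lhs => rw [← b2]
            ring
        _ = (T.D u * k + T.K * T.De e % T.D u) * y + T.K * (X e % T.De e) := by rw [b4]
        _ ≤ _ := by nlinarith
  rw [mg_mul, mg_mul] at a1 a2
  have b4 := Nat.div_add_mod (T.K * T.s u) (T.D u)
  have b5 := Nat.mod_lt (T.K * T.s u) (h.D0 u)
  rw [t, if_pos hu]
  generalize T.K * T.s u / T.D u = k at *
  generalize T.K * T.s u % T.D u = r at *
  zify at a1 a2 b4 b5
  constructor <;> nlinarith

theorem OK.apx (h : T.OK x H) {ε : ℝ} (h0 : 0 ≤ ε) (h1 : ε ≤ 1 / 2) {cv : (Fin m × Fin n → ℕ) → ℤ}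
    {C : ℕ} (hcv : ∀ y, (∀ e, y e ≤ T.K) → 0 ≤ cv y ∧ cv y ≤ C) (hR : 2 * x + 2 ≤ T.R) :
    ∃ a b : ℝ, (∏ e, T.De e : ℕ) * ∑ y ∈ Fintype.piFinset fun _ => range (T.K + 1), T.f ε cv y = a + b ∧
      Close (2 * ε * (C + x * (T.K ^ 2 * ((2 * x + 2) * (2 * T.R + (2 * x + 2)))) : ℕ) +
        ∑ u, T.W u * (4 * x ^ 3 / H u : ℝ)) a
        ((TS T.o T.s).card * ∏ u, if T.sf u then T.D u * T.Γ ε else 1) ∧ 0 ≤ b ∧
      b ≤ (∏ e, (T.K + 1) * T.De e : ℕ) * (1 - ε) ^ (T.K ^ 2 * (T.R - (2 * x + 2)) ^ 2) := by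
  classical
  have hp : 0 < 1 - ε := by linarith
  have hW : ∀ u, T.sf u = true → (T.R + 1) * T.D u ≤ T.s u := fun u hu => by
    have := (h.rob u hu).2.1
    rw [W, if_pos hu] at this; omega
  let lo : Fin m ⊕ Fin n → ℕ := fun u => T.s u - T.R * T.D u
  let A : Fin m ⊕ Fin n → Finset ℕ := fun u =>
    if T.sf u then Ico (lo u) (lo u + (2 * T.R + 1) * T.D u) else {T.s u}
  let σ : (Fin m × Fin n → ℕ) → Fin m ⊕ Fin n → ℕ := fun X => Function.update (mg X) (.inl T.o) (T.s (.inl T.o))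
  let G : Fin m ⊕ Fin n → ℕ → ℝ := fun u v =>
    if T.sf u then (1 - ε) ^ ((T.K : ℤ) ^ 2 * ((((v - lo u) / T.D u : ℕ) : ℤ) - T.R) ^ 2) else 1
  let Box := Fintype.piFinset fun e => range ((T.K + 1) * T.De e)
  have hσ : ∀ X u, u ≠ .inl T.o → σ X u = mg X u := fun X u hu => Function.update_of_ne hu _ _
  have hso : ∀ u, T.sf u = true → u ≠ .inl T.o := fun u hu e => by simp [e, h.so] at hu
  have hA : ∀ v ∈ Fintype.piFinset A, ∀ u, v u ≤ T.s u + T.W u ∧ T.s u ≤ v u + T.W u := fun v hv u => by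
    have := Fintype.mem_piFinset.1 hv u
    simp only [A, W, lo] at this ⊢
    split_ifs at this ⊢ with hu
    · have := hW u hu
      simp only [mem_Ico, add_mul, one_mul, mul_assoc] at *
      omega
    · simp [mem_singleton.1 this]
  have hEx : ∀ X, T.Ex (fun e => X e / T.De e) ↔ T.Ex X := fun X =>
    forall₃_congr fun u h1 h2 => by rw [mg_congr fun e he => by rw [h.ex1 e u he h1 h2, Nat.div_one]]
  rw [← sum_div_pi _ _ h.De0, ← sum_filter_add_sum_filter_not _ fun X => σ X ∈ Fintype.piFinset A]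
  refine ⟨_, _, rfl, ?_, sum_nonneg fun X _ => by unfold f; split_ifs <;> positivity, ?_⟩
  · refine Close.trans (b := ∑ X ∈ Box.filter fun X => σ X ∈ Fintype.piFinset A, ∏ u, G u (σ X u))
      (Close.sum fun X hX => ?_) ?_
    · simp only [mem_filter, Box, Fintype.mem_piFinset, mem_range] at hX
      have e1 : T.Ex X := fun u h1 h2 => by simpa [A, h2, hσ X u h1] using hX.2 u
      have e2 : ∏ u, G u (σ X u) = (1 - ε) ^ ∑ u, if T.sf u then
          (T.K : ℤ) ^ 2 * ((((σ X u - lo u) / T.D u : ℕ) : ℤ) - T.R) ^ 2 else 0 := by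
        rw [← prod_zpow _ hp.ne']
        exact prod_congr rfl fun u _ => by simp only [G]; split_ifs <;> simp
      rw [f, if_pos ((hEx X).2 e1), e2]
      refine close_zpow h0 h1 ?_
      obtain ⟨c1, c2⟩ := hcv (fun e => X e / T.De e) fun e =>
        Nat.lt_succ_iff.1 ((Nat.div_lt_iff_lt_mul (h.De0 e)).2 (hX.1 e))
      rw [add_sub_assoc, ← sum_sub_distrib]
      refine (abs_add_le _ _).trans ?_
      push_cast
      refine add_le_add (by rwa [abs_of_nonneg c1]) ((abs_sum_le_sum_abs _ _).trans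
        ((sum_le_card_nsmul _ _ ((T.K : ℤ) ^ 2 * ((2 * x + 2) * (2 * T.R + (2 * x + 2)))) fun u _ => ?_).trans ?_))
      · split_ifs with hu
        swap
        · simp only [t, hu]; simp; positivity
        obtain ⟨d1, d2⟩ := h.est hX.1 hu
        have d3 := hX.2 u
        have d4 := hW u hu
        have d5 := h.D0 u
        simp only [A, hu, if_true, mem_Ico, hσ X u (hso u hu)] at d3 ⊢
        have d6 := Nat.div_add_mod (mg X u - lo u) (T.D u)
        have d7 := Nat.mod_lt (mg X u - lo u) d5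
        have d8 : (mg X u - lo u) / T.D u < 2 * T.R + 1 := (Nat.div_lt_iff_lt_mul d5).2 (by omega)
        have d9 : mg X u + T.R * T.D u =
            T.s u + (T.D u * ((mg X u - lo u) / T.D u) + (mg X u - lo u) % T.D u) := by
          rw [add_mul] at d4; simp only [lo] at *; omega
        rw [← Int.natCast_div]
        exact arith_in h.K0 d5 d7 d8 d9 d1 d2
      · rw [nsmul_eq_mul]
        refine mul_le_mul_of_nonneg_right ?_ (by positivity)
        simpa using (Int.ofNat_le.2 h.hx)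
    · rw [← sum_fiberwise_of_maps_to (g := σ) (t := Fintype.piFinset A) fun X hX => (mem_filter.1 hX).2]
      have e3 : (∏ u, if T.sf u then T.D u * T.Γ ε else 1) = ∑ v ∈ Fintype.piFinset A, ∏ u, G u (v u) := by
        rw [← prod_univ_sum]
        refine prod_congr rfl fun u _ => ?_
        simp only [A, G]
        split_ifs
        · exact (sum_div_Ico _ _ _ (h.D0 u) fun b => (1 - ε) ^ ((T.K : ℤ) ^ 2 * ((b : ℤ) - T.R) ^ 2)).symm
        · simp
      rw [e3, mul_sum]
      refine Close.sum fun v hv => ?_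
      rw [sum_congr (s₁ := Finset.filter _ _) rfl (g := fun _ => ∏ u, G u (v u)) fun X hX => by
        rw [(mem_filter.1 hX).2], sum_const, nsmul_eq_mul]
      have e4 : ((Box.filter fun X => σ X ∈ Fintype.piFinset A).filter fun X => σ X = v) = TS T.o v := by
        ext X
        simp only [mem_filter, mem_TS]
        refine ⟨fun hX u hu => by rw [← hX.2, hσ X u hu], fun hX => ?_⟩
        have e5 : σ X = v := funext fun u => by
          by_cases hu : u = .inl T.o
          · have := Fintype.mem_piFinset.1 hv u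
            simp only [A, hu, h.so] at this
            simp_all [σ]
          · rw [hσ X u hu, hX u hu]
        refine ⟨⟨Fintype.mem_piFinset.2 fun e => ?_, e5 ▸ hv⟩, e5⟩
        obtain ⟨u, b1, b2, b3⟩ := h.box e
        have := le_mg (X := X) b1
        have := (hA v hv u).1
        rw [hX u b2] at *
        exact mem_range.2 (by omega)
      rw [e4]
      refine Close.mul_right (TS_close T.o (by have := h.hx; omega) (by have := h.hx; omega) T.s T.W H h.bal
        (fun u _ hu => h.rob u (by by_contra hc; simp [W, hc] at hu)) v fun u _ => hA v hv u).symm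
        (prod_nonneg fun u _ => ?_)
      simp only [G]; split_ifs <;> positivity
  · refine (sum_le_card_nsmul _ _ ((1 - ε) ^ (T.K ^ 2 * (T.R - (2 * x + 2)) ^ 2)) fun X hX => ?_).trans ?_
    · simp only [mem_filter, Fintype.mem_piFinset, mem_range, not_forall] at hX
      obtain ⟨hX, u, hu⟩ := hX
      rw [f]
      split_ifs with e1
      swap
      · positivity
      have e2 : T.sf u = true := by
        by_contra hc
        refine hu ?_
        simp only [A, hc]
        by_cases e : u = .inl T.o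
        · simp [e, σ]
        · simp [hσ X u e, (hEx X).1 e1 u e (by simpa using hc)]
      obtain ⟨c1, -⟩ := hcv (fun e => X e / T.De e) fun e =>
        Nat.lt_succ_iff.1 ((Nat.div_lt_iff_lt_mul (h.De0 e)).2 (hX e))
      rw [← zpow_natCast]
      refine zpow_le_zpow_right_of_le_one₀ hp (by linarith) (le_add_of_nonneg_of_le c1 (le_trans ?_
        (single_le_sum (f := fun u => T.t (fun e => X e / T.De e) u ^ 2) (fun _ _ => sq_nonneg _)
          (mem_univ u))))
      obtain ⟨d1, d2⟩ := h.est hX e2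
      have d4 := hW u e2
      have d5 := h.D0 u
      simp only [A, e2, if_true, mem_Ico, hσ X u (hso u e2), lo, not_and_or, not_le, not_lt] at hu
      have d6 : mg X u + T.R * T.D u < T.s u ∨ T.s u + (T.R + 1) * T.D u ≤ mg X u := by
        simp only [add_mul, mul_assoc] at *; omega
      obtain ⟨q, hq⟩ := Nat.exists_eq_add_of_le hR
      rw [hq, Nat.add_sub_cancel_left]
      rw [hq] at d6
      exact arith_out h.K0 d5 d6 d1 d2
    · rw [nsmul_eq_mul]
      refine mul_le_mul_of_nonneg_right ?_ (by positivity)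
      exact_mod_cast (card_filter_le _ _).trans (by simp [Fintype.card_piFinset])

end Tb

end Vale.Agent.P328
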