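import Vale.Agent.P317.Mat

/-! Weighted matroid complexes whose codimension-two links are Lorentzian are Lorentzian. -/

namespace Vale.Agent.P328

open Finset Matrix Vale.Agent.P317

variable {V : Type} [Fintype V] [DecidableEq V] {A : Type} [CommRing A] [Algebra ℝ A]

def Qw (w : Finset V → ℝ) (F : Finset V) : Matrix V V ℝ :=
  fun s t => if s ∉ F ∧ t ∉ F ∧ s ≠ t then w (insert s (insert t F)) else 0

def LorW (w : Finset V → ℝ) : Prop := ∃ S : Sys V (Alg V), S.Lor ∧ ∀ I, S.l (S.mon I) = w I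

section
variable (C : Cx V) (r : ℕ) (S : Sys V A) (w : Finset V → ℝ) (hS : ∀ I, S.l (S.mon I) = w I)
  (hw0 : ∀ I, 0 ≤ w I) (hwp : ∀ I, 0 < w I ↔ C.Ind I ∧ I.card = r)
include hS hw0

theorem nn_one : S.NN 1 := fun I => by rw [mul_one, hS]; exact hw0 I

include hwp

theorem pos_iff (vs : List (V → ℝ)) (hv : ∀ c ∈ vs, ∀ s, 0 < c s) (F : Finset V) :
    0 < S.l (S.mon F * S.prodl vs) ↔ C.Ext r F ∧ F.card + vs.length = r := by
  induction vs generalizing F with
  | nil =>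
    simp only [Sys.prodl, List.map_nil, List.prod_nil, mul_one, hS, List.length_nil, add_zero, hwp]
    constructor
    · exact fun h1 => ⟨⟨F, Subset.refl _, h1⟩, h1.2⟩
    · rintro ⟨⟨B, h1, h2, h3⟩, h4⟩
      exact ⟨C.down _ _ h1 h2, h4⟩
  | cons c vs ih =>
    have hv' : ∀ c ∈ vs, ∀ s, 0 < c s := fun c hc => hv c (by simp [hc])
    have hc := hv c (by simp)
    have e : S.l (S.mon F * S.prodl (c :: vs)) = ∑ s, c s * S.l (S.x s * S.mon F * S.prodl vs) := by
      rw [Sys.prodl_cons, show S.mon F * (S.lin c * S.prodl vs) = S.mon F * S.prodl vs * S.lin c by ring,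
        Sys.l_mul_lin]
      exact sum_congr rfl fun s _ => by congr 2; ring
    have hnn : ∀ s, 0 ≤ c s * S.l (S.x s * S.mon F * S.prodl vs) := fun s =>
      mul_nonneg (hc s).le ((((Sys.pos_x s).cone.mul_cone (Sys.cone_mon F)).mul_cone
        (Sys.cone_prodl fun c hc s => (hv' c hc s).le)).nonneg (nn_one S w hS hw0))
    rw [e, sum_pos_iff_of_nonneg fun s _ => hnn s]
    constructor
    · rintro ⟨s, _, h⟩
      have h' := (mul_pos_iff_of_pos_left (hc s)).1 h
      have hs : s ∉ F := fun hs => by rw [S.x_mul_mon hs] at h'; simp at h'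
      rw [← S.mon_insert hs, ih hv', card_insert_of_notMem hs] at h'
      obtain ⟨⟨B, h1, h2⟩, h3⟩ := h'
      exact ⟨⟨B, (subset_insert s F).trans h1, h2⟩, by simp; omega⟩
    · rintro ⟨⟨B, h1, h2, h3⟩, h4⟩
      simp only [List.length_cons] at h4
      obtain ⟨s, hsB, hs⟩ := exists_mem_notMem_of_card_lt_card (s := F) (t := B) (by omega)
      refine ⟨s, mem_univ _, mul_pos (hc s) ?_⟩
      rw [← S.mon_insert hs, ih hv', card_insert_of_notMem hs]
      exact ⟨⟨B, insert_subset hsB h1, h2, h3⟩, by omega⟩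

theorem Mx_pos_iff (vs : List (V → ℝ)) (hv : ∀ c ∈ vs, ∀ s, 0 < c s) (F : Finset V) (s t : V) :
    0 < S.Mx (S.mon F * S.prodl vs) s t ↔
      s ∉ F ∧ t ∉ F ∧ s ≠ t ∧ C.Ext r (insert s (insert t F)) ∧ F.card + 2 + vs.length = r := by
  have e : S.Mx (S.mon F * S.prodl vs) s t = S.l (S.x s * (S.x t * S.mon F) * S.prodl vs) := by
    simp only [Sys.Mx]; congr 1; ring
  rw [e]
  by_cases ht : t ∈ F
  · simp [S.x_mul_mon ht, ht]
  rw [← S.mon_insert ht]
  by_cases hs : s ∈ insert t F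
  · rw [S.x_mul_mon hs]
    rcases mem_insert.1 hs with h | h <;> simp [h]
  rw [← S.mon_insert hs, pos_iff C r S w hS hw0 hwp vs hv, card_insert_of_notMem hs,
    card_insert_of_notMem ht]
  simp only [mem_insert, not_or] at hs
  simp [hs.1, hs.2, ht]

omit hw0 hwp [Fintype V] in
theorem Mx_mon (F : Finset V) : S.Mx (S.mon F) = Qw w F := by
  ext s t
  have e : S.Mx (S.mon F) s t = S.l (S.x s * (S.x t * S.mon F)) := by
    simp only [Sys.Mx]; congr 1; ring
  rw [e, Qw]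
  by_cases ht : t ∈ F
  · simp [S.x_mul_mon ht, ht]
  rw [← S.mon_insert ht]
  by_cases hs : s ∈ insert t F
  · rw [S.x_mul_mon hs]
    rcases mem_insert.1 hs with h | h <;> simp [h]
  rw [← S.mon_insert hs, hS]
  simp only [mem_insert, not_or] at hs
  simp [hs.1, hs.2, ht]

variable (hb : ∀ F, ∃ lam : V → ℝ, ∀ c, lam ⬝ᵥ c = 0 → c ⬝ᵥ Qw w F *ᵥ c ≤ 0)
include hb

theorem lor_pos (vs : List (V → ℝ)) (hv : ∀ c ∈ vs, ∀ s, 0 < c s) (F : Finset V)
    (c c' : V → ℝ) (h' : ∀ s, 0 ≤ c' s) :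
    (c ⬝ᵥ S.Mx (S.mon F * S.prodl vs) *ᵥ c) * (c' ⬝ᵥ S.Mx (S.mon F * S.prodl vs) *ᵥ c') ≤
      (c ⬝ᵥ S.Mx (S.mon F * S.prodl vs) *ᵥ c') ^ 2 := by
  have hw := nn_one S w hS hw0
  induction vs generalizing F c c' with
  | nil =>
    obtain ⟨lam, hl⟩ := hb F
    have h1 := S.Mx_symm (S.mon F)
    simp only [Sys.prodl, List.map_nil, List.prod_nil, mul_one, Mx_mon S w hS] at h1 ⊢
    refine lor_of_hyper _ h1 lam hl c c' (sum_nonneg fun s _ => mul_nonneg (h' s)
      (sum_nonneg fun t _ => mul_nonneg ?_ (h' t)))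
    change 0 ≤ Qw w F s t
    simp only [Qw]; split_ifs
    · exact hw0 _
    · exact le_rfl
  | cons v vs ih =>
    have hv' : ∀ c ∈ vs, ∀ s, 0 < c s := fun c hc => hv c (by simp [hc])
    have hv0 := hv v (by simp)
    set M := S.Mx (S.mon F * S.prodl (v :: vs)) with hM
    have hcone : S.Cone (S.mon F * S.prodl (v :: vs)) :=
      (Sys.cone_mon F).mul_cone (Sys.cone_prodl fun c hc s => (hv c hc s).le)
    have hn : ∀ i j, 0 ≤ M i j := fun i j =>
      ((hcone.mul_pos (Sys.pos_x i)).mul_pos (Sys.pos_x j)).nonneg hw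
    refine lor_of_hyper M (S.Mx_symm _) (M *ᵥ v) (bochner M (S.Mx_symm _) hn v hv0 ?_ ?_) c c'
      (sum_nonneg fun s _ => mul_nonneg (h' s) (sum_nonneg fun t _ => mul_nonneg (hn s t) (h' t)))
    · have hd : ∀ i, 0 < (M *ᵥ v) i → i ∉ F ∧ C.Ext r (insert i F) ∧ F.card + 3 + vs.length = r := by
        intro i hi
        rw [hM, S.Mx_mulVec, show S.mon F * S.prodl (v :: vs) * S.x i * S.lin v =
          S.x i * S.mon F * S.prodl (v :: v :: vs) by simp only [Sys.prodl_cons]; ring] at hi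
        have hs : i ∉ F := fun hs => by rw [S.x_mul_mon hs] at hi; simp at hi
        rw [← S.mon_insert hs, pos_iff C r S w hS hw0 hwp _ (by
          intro c hc; rcases List.mem_cons.1 hc with rfl | hc; exacts [hv0, hv c hc]),
          card_insert_of_notMem hs] at hi
        exact ⟨hs, hi.1, by have := hi.2; simp at this; omega⟩
      have hMp := Mx_pos_iff C r S w hS hw0 hwp (v :: vs) hv F
      simp only [← hM, List.length_cons] at hMp
      intro i j hi hj
      obtain ⟨hi1, ⟨B, b1, b2, b3⟩, hr⟩ := hd i hi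
      obtain ⟨hj1, ⟨B', b1', b2', b3'⟩, -⟩ := hd j hj
      by_cases hij : i = j
      · exact Or.inl hij
      right
      obtain ⟨k, hkB, hk⟩ := exists_mem_notMem_of_card_lt_card (s := insert i F) (t := B)
        (by rw [card_insert_of_notMem hi1]; omega)
      have hI : C.Ind (insert k (insert i F)) := C.down _ _ (insert_subset hkB b1) b2
      have hJ : C.Ind (insert j F) := C.down _ _ b1' b2'
      obtain ⟨e, he1, he2, he3⟩ := C.aug _ _ hJ hI (by
        rw [card_insert_of_notMem hk, card_insert_of_notMem hi1, card_insert_of_notMem hj1]; omega)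
      have hE : C.Ext r (insert e (insert j F)) := C.ext_of_ind b2 b3 (vs.length + 1) _ he3 (by
        rw [card_insert_of_notMem he2, card_insert_of_notMem hj1]; omega)
      simp only [mem_insert, not_or] at he1 he2 hk
      rcases he1 with rfl | rfl | h
      · right
        refine ⟨e, ?_, (hMp _ _).2 ⟨he2.2, hj1, he2.1, hE, by omega⟩⟩
        rw [hM, S.Mx_symm, ← hM]
        exact (hMp _ _).2 ⟨hk.2, hi1, hk.1, ⟨B, insert_subset hkB b1, b2, b3⟩, by omega⟩
      · exact Or.inl ((hMp _ _).2 ⟨he2.2, hj1, he2.1, hE, by omega⟩)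
      · exact absurd h he2.2
    · intro c
      let N : V → Matrix V V ℝ := fun i => S.Mx (S.x i * S.mon F * S.prodl vs)
      have e1 : ∀ (a : V → ℝ) i, (M *ᵥ a) i = a ⬝ᵥ N i *ᵥ v := by
        intro a i
        rw [hM, S.Mx_mulVec, ← S.l_quad, Sys.prodl_cons]; congr 1; ring
      have e2 : c ⬝ᵥ M *ᵥ c = ∑ i, v i * (c ⬝ᵥ N i *ᵥ c) := by
        rw [hM, ← S.l_quad, Sys.prodl_cons, show S.mon F * (S.lin v * S.prodl vs) * S.lin c * S.lin c =
          S.mon F * S.prodl vs * S.lin c * S.lin c * S.lin v by ring, Sys.l_mul_lin]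
        refine sum_congr rfl fun i _ => ?_
        rw [← S.l_quad]; congr 2; ring
      rw [e2]
      refine sum_le_sum fun i _ => ?_
      rw [e1, e1, mul_div_assoc]
      refine mul_le_mul_of_nonneg_left ?_ (hv0 i).le
      have hcn : S.Cone (S.x i * S.mon F * S.prodl vs) :=
        ((Sys.pos_x i).cone.mul_cone (Sys.cone_mon F)).mul_cone
          (Sys.cone_prodl fun c hc s => (hv' c hc s).le)
      have hNn : ∀ s t, 0 ≤ N i s t := fun s t =>
        ((hcn.mul_pos (Sys.pos_x s)).mul_pos (Sys.pos_x t)).nonneg hw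
      have hd0 : 0 ≤ v ⬝ᵥ N i *ᵥ v := sum_nonneg fun s _ => mul_nonneg (hv0 s).le
        (sum_nonneg fun t _ => mul_nonneg (hNn s t) (hv0 t).le)
      rcases hd0.eq_or_lt with h | h
      · rw [quad_zero (N i) hNn v hv0 h.symm c, ← h]; simp
      · rw [le_div_iff₀ h]
        by_cases hi : i ∈ F
        · have : N i = 0 := by ext s t; simp [N, Sys.Mx, S.x_mul_mon hi]
          simp [this]
        · simp only [N, ← S.mon_insert hi]
          exact ih hv' _ _ _ fun s => (hv0 s).le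

theorem lor_w : S.Lor := by
  intro m hm a b ⟨c, ha⟩ ⟨c', h', hb'⟩
  obtain ⟨vs, hvs, rfl⟩ : ∃ vs : List (V → ℝ), (∀ c ∈ vs, ∀ s, 0 ≤ c s) ∧ m = S.prodl vs := by
    induction hm with
    | one => exact ⟨[], by simp, by simp [Sys.prodl]⟩
    | mul hy _ ih =>
      obtain ⟨vs, h1, rfl⟩ := ih
      obtain ⟨c, hc, rfl⟩ := hy
      exact ⟨c :: vs, by simpa using ⟨hc, h1⟩, (Sys.prodl_cons _ _).symm⟩
  subst ha hb'
  let P : ℝ → A := fun ε => S.prodl (vs.map fun c s => c s + ε)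
  have key : ∀ ε, 0 < ε → S.l (P ε * (S.lin c * S.lin c)) * S.l (P ε * (S.lin c' * S.lin c')) ≤
      S.l (P ε * (S.lin c * S.lin c')) ^ 2 := by
    intro ε hε
    have := lor_pos C r S w hS hw0 hwp hb (vs.map fun c s => c s + ε) (by
      intro c hc s
      obtain ⟨c0, h0, rfl⟩ := List.mem_map.1 hc
      have := hvs c0 h0 s
      positivity) ∅ c c' h'
    simpa only [← S.l_quad, Sys.mon_empty, one_mul, mul_assoc] using this
  have hcl : IsClosed {ε : ℝ | S.l (P ε * (S.lin c * S.lin c)) * S.l (P ε * (S.lin c' * S.lin c')) ≤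
      S.l (P ε * (S.lin c * S.lin c')) ^ 2} :=
    isClosed_le ((cont_eps S vs _).mul (cont_eps S vs _)) ((cont_eps S vs _).pow 2)
  have h0 := hcl.closure_subset (closure_mono (s := Set.Ioi 0) key (by simp : (0 : ℝ) ∈ closure (Set.Ioi 0)))
  simpa [P, mul_assoc] using h0

end

theorem lorW_of (C : Cx V) (r : ℕ) (w : Finset V → ℝ) (hw0 : ∀ I, 0 ≤ w I)
    (hwp : ∀ I, 0 < w I ↔ C.Ind I ∧ I.card = r)
    (hb : ∀ F, ∃ lam : V → ℝ, ∀ c, lam ⬝ᵥ c = 0 → c ⬝ᵥ Qw w F *ᵥ c ≤ 0) : LorW w := by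
  obtain ⟨S, hS⟩ := exists_sys w
  exact ⟨S, lor_w C r S w hS hw0 hwp hb, hS⟩

theorem LorW.scale {w : Finset V → ℝ} (h : LorW w) (a : V → ℝ) (ha : ∀ s, 0 ≤ a s) :
    LorW fun I => w I * ∏ s ∈ I, a s := by
  obtain ⟨S, h1, hS⟩ := h
  refine ⟨S.scale a, S.scale_lor a ha h1, fun I => ?_⟩
  have : (S.scale a).mon I = (∏ s ∈ I, a s) • S.mon I := by
    simp [Sys.mon, Sys.scale, prod_smul]
  rw [this]
  change S.l _ = _
  rw [map_smul, hS, smul_eq_mul, mul_comm]

end Vale.Agent.P328
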