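import Vale.Agent.P317.Inst
import Vale.Agent.P328.Lor

/-! A reversible exchange chain with dyadic acceptance probabilities. -/

namespace Vale.Agent.P328

open Finset Vale.Agent.P317

export Vale.Agent.P317 (trans)

variable {V : Type} [Fintype V] [DecidableEq V]

structure Metro (W : Finset V → ℝ) (c : ℝ) (acc : Finset V → Finset V → ℝ) : Prop where
  hW : ∀ I, 0 ≤ W I
  c0 : 0 < c
  c1 : c * (Fintype.card V : ℝ) ^ 2 ≤ 1 / 2
  a0 : ∀ I J, 0 ≤ acc I J
  a1 : ∀ I J, acc I J ≤ 1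
  bal : ∀ I J, W I * acc I J = W J * acc J I
  low : ∀ I J, min (W I) (W J) ≤ 2 * (W I * acc I J)

namespace Metro

variable {W : Finset V → ℝ} {c : ℝ} {acc : Finset V → Finset V → ℝ} (H : Metro W c acc)
include H

theorem ip_P (g f : Finset V → ℝ) : ip W g (Pop c acc f) = ip W g f - c / 2 *
    ∑ I, ∑ p, ∑ s, if p ∈ I ∧ s ∉ I then
      W I * acc I (swp I p s) * ((g I - g (swp I p s)) * (f I - f (swp I p s))) else 0 := by
  have e1 : ip W g (Pop c acc f) = ip W g f + c * ∑ I, ∑ p, ∑ s, if p ∈ I ∧ s ∉ I then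
      W I * acc I (swp I p s) * (g I * (f (swp I p s) - f I)) else 0 := by
    simp only [ip, Pop_apply, mul_add, sum_add_distrib, mul_sum]
    congr 1
    refine sum_congr rfl fun I _ => sum_congr rfl fun p _ => sum_congr rfl fun s _ => ?_
    split_ifs <;> ring
  have e2 := sum_swp fun I J => W I * acc I J * (g I * (f J - f I))
  have e3 : (∑ I, ∑ p, ∑ s, if p ∈ I ∧ s ∉ I then
      W I * acc I (swp I p s) * ((g I - g (swp I p s)) * (f I - f (swp I p s))) else 0) =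
      -(∑ I, ∑ p, ∑ s, if p ∈ I ∧ s ∉ I then
        W I * acc I (swp I p s) * (g I * (f (swp I p s) - f I)) else 0) -
      ∑ I, ∑ p, ∑ s, if p ∈ I ∧ s ∉ I then
        W (swp I p s) * acc (swp I p s) I * (g (swp I p s) * (f I - f (swp I p s))) else 0 := by
    simp only [← sum_neg_distrib, ← sum_sub_distrib]
    refine sum_congr rfl fun I _ => sum_congr rfl fun p _ => sum_congr rfl fun s _ => ?_
    rw [H.bal (swp I p s)]
    split_ifs <;> ring
  rw [e1, e3, ← e2]; ring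

theorem symm (g f : Finset V → ℝ) : ip W g (Pop c acc f) = ip W (Pop c acc g) f := by
  rw [ip_comm W (Pop c acc g), H.ip_P, H.ip_P, ip_comm]
  simp only [mul_comm (g _ - g _)]

theorem energy (f : Finset V → ℝ) : c / 4 * dir W f ≤ ip W f f - ip W f (Pop c acc f) := by
  rw [H.ip_P, dir, sub_sub_cancel, show c / 4 = c / 2 * (1 / 2) by ring, mul_assoc]
  refine mul_le_mul_of_nonneg_left ?_ (by linarith [H.c0])
  simp only [mul_sum]
  refine sum_le_sum fun I _ => sum_le_sum fun p _ => sum_le_sum fun s _ => ?_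
  split_ifs
  · nlinarith [H.low I (swp I p s), sq_nonneg (f I - f (swp I p s))]
  · simp

theorem psd (f : Finset V → ℝ) : 0 ≤ ip W f (Pop c acc f) := by
  have e2 := sum_swp fun I J => W I * acc I J * f I ^ 2
  have h1 : (∑ I, ∑ p, ∑ s, if p ∈ I ∧ s ∉ I then W I * acc I (swp I p s) * f I ^ 2 else 0) ≤
      (Fintype.card V : ℝ) ^ 2 * ip W f f := by
    rw [ip, mul_sum]
    refine sum_le_sum fun I _ => ?_
    refine (sum_le_card_nsmul _ _ _ fun p _ => sum_le_card_nsmul _ _ (W I * (f I * f I))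
      fun s _ => ?_).trans (le_of_eq (by simp; ring))
    have := H.hW I
    split_ifs
    · rw [← pow_two]
      exact mul_le_mul_of_nonneg_right (mul_le_of_le_one_right this (H.a1 _ _)) (sq_nonneg _)
    · exact mul_nonneg this (mul_self_nonneg _)
  have h2 : (∑ I, ∑ p, ∑ s, if p ∈ I ∧ s ∉ I then
      W I * acc I (swp I p s) * ((f I - f (swp I p s)) * (f I - f (swp I p s))) else 0) ≤
      2 * (∑ I, ∑ p, ∑ s, if p ∈ I ∧ s ∉ I then W I * acc I (swp I p s) * f I ^ 2 else 0) +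
      2 * ∑ I, ∑ p, ∑ s, if p ∈ I ∧ s ∉ I then
        W (swp I p s) * acc (swp I p s) I * f (swp I p s) ^ 2 else 0 := by
    simp only [mul_sum, ← sum_add_distrib]
    refine sum_le_sum fun I _ => sum_le_sum fun p _ => sum_le_sum fun s _ => ?_
    rw [H.bal (swp I p s)]
    split_ifs
    · nlinarith [mul_nonneg (mul_nonneg (H.hW I) (H.a0 I (swp I p s))) (sq_nonneg (f I + f (swp I p s)))]
    · simp
  rw [← e2] at h2
  have h3 := H.ip_P f f
  have h4 : 0 ≤ ip W f f := sum_nonneg fun i _ => mul_nonneg (H.hW i) (mul_self_nonneg _)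
  nlinarith [mul_le_mul_of_nonneg_left h1 H.c0.le, mul_le_mul_of_nonneg_left h2 H.c0.le,
    mul_le_mul_of_nonneg_right H.c1 h4]

theorem bound {f : Finset V → ℝ} {b : ℝ} (hf : ∀ I, f I ≤ b) (I : Finset V) : Pop c acc f I ≤ b := by
  rw [Pop_apply]
  have h1 : (∑ p, ∑ s, if p ∈ I ∧ s ∉ I then acc I (swp I p s) * (f (swp I p s) - f I) else 0) ≤
      (Fintype.card V : ℝ) ^ 2 * (b - f I) := by
    refine (sum_le_card_nsmul _ _ _ fun p _ => sum_le_card_nsmul _ _ (b - f I)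
      fun s _ => ?_).trans (le_of_eq (by simp; ring))
    have := hf I
    split_ifs
    · nlinarith [H.a0 I (swp I p s), H.a1 I (swp I p s), hf (swp I p s)]
    · linarith
  nlinarith [mul_le_mul_of_nonneg_left h1 H.c0.le, mul_le_mul_of_nonneg_right H.c1 (sub_nonneg.2 (hf I)),
    hf I]

theorem unit {f : Finset V → ℝ} (hf : ∀ I, 0 ≤ f I ∧ f I ≤ 1) (k : ℕ) (I : Finset V) :
    0 ≤ (Pop c acc ^ k) f I ∧ (Pop c acc ^ k) f I ≤ 1 := by
  induction k generalizing I with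
  | zero => exact hf I
  | succ k ih =>
    rw [pow_succ', Module.End.mul_apply]
    refine ⟨?_, H.bound (fun I => (ih I).2) I⟩
    have := H.bound (f := -(Pop c acc ^ k) f) (b := 0) (fun I => by simpa using (ih I).1) I
    rw [map_neg] at this
    simpa using this

end Metro

variable {G : Type} [Fintype G] [DecidableEq G] {A : Type} [CommRing A] [Algebra ℝ A]

theorem warm {S : Sys (G × Bool) A} {h : G → G → ℝ} {R c : ℝ}
    {acc : Finset (G × Bool) → Finset (G × Bool) → ℝ} (H : S.Good h R) (M : Metro (S.Wt h) c acc)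
    {o : Option (G × Bool)} {Γ η : ℝ} {g : Finset (G × Bool) → ℝ} (hg : Sys.Cls o Γ g)
    (hg0 : ∑ I, S.Wt h I * g I = 0) {T : ℕ} (hη : 0 ≤ η) (hT0 : 0 < T)
    (hT : 2 * (60 * Γ * R * (Fintype.card G + 1) ^ 3) ^ 2 ≤ η ^ 2 * c * T)
    {f : Finset (G × Bool) → ℝ} (hf : ∀ I, 0 ≤ f I ∧ f I ≤ 1) :
    |∑ I, S.Wt h I * ((1 + g I) * (Pop c acc ^ T) f I) - ∑ I, S.Wt h I * f I| ≤ η * ∑ I, S.Wt h I := by
  set W := S.Wt h
  have hZ := H.hZ
  have hc := M.c0
  set C := (60 * Γ * R * (Fintype.card G + 1) ^ 3) ^ 2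
  have hC : 0 ≤ C := sq_nonneg _
  have hd := decay (P := Pop c acc) M.hW M.symm M.psd (fun f => by
    have := M.energy f
    have := dir_nonneg M.hW f
    nlinarith) (g := g) (K := C * S.Zt * (4 / c)) (by positivity) (fun f => by
      refine le_trans ?_ (mul_le_mul_of_nonneg_left (M.energy f) (by positivity))
      refine (H.poincare hg hg0 f).trans (le_of_eq ?_)
      change C * S.Zt * dir W f = _
      field_simp) T
  have e1 : ∑ I, W I * ((1 + g I) * (Pop c acc ^ T) f I) - ∑ I, W I * f I =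
      ip W ((Pop c acc ^ T) g) f := by
    have h1 := ip_pow M.symm T (fun _ => 1) f
    rw [P317.Metro.one] at h1
    rw [← ip_pow M.symm]
    simp only [ip, one_mul] at h1 ⊢
    simp only [add_mul, one_mul, mul_add, sum_add_distrib, h1]; ring
  rw [e1]
  set x := (Pop c acc ^ T) g
  have hZW : S.Zt ≤ ∑ I, W I := Sys.Zt_le H.hw H.pos
  have hxx : ip W x x ≤ η ^ 2 * ∑ I, W I := by
    have hT' : (0 : ℝ) < T := by exact_mod_cast hT0
    have : C * S.Zt * (4 / c) ≤ 2 * T * (η ^ 2 * S.Zt) := by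
      rw [show C * S.Zt * (4 / c) = (C * S.Zt * 4) / c by ring, div_le_iff₀ hc]
      nlinarith
    have h2 := le_of_mul_le_mul_left (hd.trans this) (by positivity)
    exact h2.trans (mul_le_mul_of_nonneg_left hZW (sq_nonneg _))
  have := err_le univ W (fun I => x I * f I) (fun _ => True) (fun I _ => M.hW I) le_rfl
    (b := η ^ 2 * ∑ I, W I) (le_trans (sum_le_sum fun I _ => by
      refine mul_le_mul_of_nonneg_left ?_ (M.hW I)
      have := hf I
      nlinarith [mul_self_nonneg (x I), mul_le_one₀ this.2 this.1 this.2]) hxx)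
    (γ := η * ∑ I, W I) (mul_nonneg hη (hZ.le.trans hZW)) (le_of_eq (by ring))
  simpa [ip] using this

structure Base (G : Type) [Fintype G] [DecidableEq G] where
  w : Finset (G × Bool) → ℝ
  nn : ∀ I, 0 ≤ w I
  lor : LorW w

variable (X : Base G)

def fe (k : G × Bool → ℕ) (S : Finset (G × Bool)) : ℕ := ∑ v ∈ S, k v

noncomputable def wt (k : G × Bool → ℕ) (S : Finset (G × Bool)) : ℝ := X.w S * 2 ^ fe k S

theorem wt_nonneg (k : G × Bool → ℕ) (S : Finset (G × Bool)) : 0 ≤ wt X k S :=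
  mul_nonneg (X.nn S) (by positivity)

theorem exists_inst (k : G × Bool → ℕ) : ∃ S : Sys (G × Bool) (Alg (G × Bool)),
    S.NN 1 ∧ S.Lor ∧ ∀ I, S.w I = wt X k I := by
  obtain ⟨S, h1, h2⟩ := X.lor.scale (fun s => 2 ^ k s) fun s => by positivity
  have h3 : ∀ I, S.w I = wt X k I := fun I => by rw [Sys.w, h2, wt, fe, ← prod_pow_eq_pow_sum]
  exact ⟨S, fun I => by rw [mul_one]; exact (h3 I).ge.trans' (wt_nonneg X k I), h1, h3⟩

noncomputable def Zk (k : G × Bool → ℕ) : ℝ := ∑ I ∈ trans univ, wt X k I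

noncomputable def Nk (k : G × Bool → ℕ) (i j : G) : ℝ := ∑ I ∈ Nset i j, wt X k I

noncomputable def Wk (k : G × Bool → ℕ) (h : G → G → ℝ) (I : Finset (G × Bool)) : ℝ := wt X k I * tau h I

structure GoodK (k : G × Bool → ℕ) (h : G → G → ℝ) (R : ℝ) : Prop where
  hZ : 0 < Zk X k
  hR : 8 ≤ R
  pos : ∀ i j, 0 < h i j
  low : ∀ i j, Nk X k i j = 0 ∨ Zk X k ≤ 8 * (h i j * Nk X k i j)
  up : ∀ i j, h i j * Nk X k i j ≤ R * Zk X k

variable {X}

theorem sum_Wk (k : G × Bool → ℕ) (h : G → G → ℝ) (F : Finset (G × Bool) → ℝ) :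
    ∑ I, Wk X k h I * F I = ∑ I ∈ trans univ, wt X k I * F I +
      ∑ i, ∑ j, h i j * ∑ I ∈ Nset i j, wt X k I * F I := by
  obtain ⟨S, -, -, h3⟩ := exists_inst X k
  simpa only [Sys.Wt, h3, Wk, tau] using S.sum_Wt h F

theorem GoodK.tot {k : G × Bool → ℕ} {h : G → G → ℝ} {R : ℝ} (H : GoodK X k h R) :
    Zk X k ≤ ∑ I, Wk X k h I ∧
      ∑ I, Wk X k h I ≤ (1 + (Fintype.card G : ℝ) ^ 2 * R) * Zk X k := by
  have := sum_Wk (X := X) k h fun _ => 1
  simp only [mul_one] at this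
  rw [this]
  refine ⟨le_add_of_nonneg_right (sum_nonneg fun i _ => sum_nonneg fun j _ =>
    mul_nonneg (H.pos i j).le (sum_nonneg fun _ _ => wt_nonneg _ _ _)), ?_⟩
  have := sum_le_card_nsmul univ _ _ fun i _ => sum_le_card_nsmul univ _ _ fun j _ => H.up i j
  simp only [card_univ, nsmul_eq_mul] at this
  simp only [Nk, Zk] at this ⊢
  linarith

theorem GoodK.warm {k : G × Bool → ℕ} {h : G → G → ℝ} {R c : ℝ}
    {acc : Finset (G × Bool) → Finset (G × Bool) → ℝ} (H : GoodK X k h R)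
    (M : Metro (Wk X k h) c acc)
    {o : Option (G × Bool)} {Γ η : ℝ} {g : Finset (G × Bool) → ℝ} (hg : Sys.Cls o Γ g)
    (hg0 : ∑ I, Wk X k h I * g I = 0) {T : ℕ} (hη : 0 ≤ η) (hT0 : 0 < T)
    (hT : 2 * (60 * Γ * R * (Fintype.card G + 1) ^ 3) ^ 2 ≤ η ^ 2 * c * T)
    {f : Finset (G × Bool) → ℝ} (hf : ∀ I, 0 ≤ f I ∧ f I ≤ 1) :
    |(∑ I, Wk X k h I * ((1 + g I) * (Pop c acc ^ T) f I)) / ∑ I, Wk X k h I -
      Ep (Wk X k h) f| ≤ η := by
  obtain ⟨S, h1, h2, h3⟩ := exists_inst X k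
  have eW : S.Wt h = Wk X k h := by funext I; simp only [Sys.Wt, h3, Wk, tau]
  have eZ : S.Zt = Zk X k := by simp only [Sys.Zt_eq, h3, Zk]
  have eN : ∀ i j, i ≠ j → S.Nm i j = Nk X k i j := fun i j hij => by
    simp only [S.Nm_eq hij, h3, Nk]
  have HG : S.Good h R := ⟨h1, h2, eZ ▸ H.hZ, by linarith [H.hR], fun i j => (H.pos i j).le,
    fun i j hij => by rw [eN i j hij, eZ]; exact H.low i j,
    fun i j hij => by rw [eN i j hij, eZ]; exact H.up i j⟩
  have := P328.warm HG (eW ▸ M) hg (eW ▸ hg0) hη hT0 hT hf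
  rw [eW] at this
  have hpos : 0 < ∑ I, Wk X k h I := H.hZ.trans_le H.tot.1
  rw [Ep, ← sub_div, abs_div, abs_of_pos hpos, div_le_iff₀ hpos]
  exact this

end Vale.Agent.P328
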