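import Mathlib

namespace Vale.Agent.P328

/-- A string function computed by a multi-stack Turing machine with finite alphabets in
polynomial time. -/
def PolyTime (f : List Bool → List Bool) : Prop :=
  ∃ h : Turing.TM2ComputableInPolyTime id id f, ∀ k, Finite (h.tm.Γ k)

/-- Unary code of `n`: `n` ones and a zero. -/
def unary (n : ℕ) : List Bool := List.replicate n true ++ [false]

/-- Self-delimiting binary code of `a`: the number of binary digits in unary, then the digits. -/
def binary (a : ℕ) : List Bool := unary a.bits.length ++ a.bits

/-- The code of an instance: `m` and `n` in unary, then the margins in binary. -/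
def code {m n : ℕ} (r : Fin m → ℕ) (c : Fin n → ℕ) : List Bool :=
  unary m ++ unary n ++ (List.ofFn r).flatMap binary ++ (List.ofFn c).flatMap binary

/-- The input string: `k`, `l` and the length of the instance `w` in unary, the instance, and the
random bits. -/
def input (k l : ℕ) (w ρ : List Bool) : List Bool :=
  unary k ++ unary l ++ unary w.length ++ w ++ ρ

/-- The natural number with the given binary digits, least significant digit first. -/
def binVal (l : List Bool) : ℕ := l.foldr Nat.bit 0

/-- The number of contingency tables with row sums `r` and column sums `c`. -/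
noncomputable def tables {m n : ℕ} (r : Fin m → ℕ) (c : Fin n → ℕ) : ℕ :=
  {X : Fin m → Fin n → ℕ | (∀ i, ∑ j, X i j = r i) ∧ ∀ j, ∑ i, X i j = c j}.ncard

/-- The string pair `(a, b)` is a fraction in binary within relative error `ε` of `N`. -/
def Approx (ε : ℚ) (N : ℕ) (a b : List Bool) : Prop :=
  0 < binVal b ∧ (1 - ε) * N ≤ (binVal a : ℚ) / binVal b ∧ (binVal a : ℚ) / binVal b ≤ (1 + ε) * N

end Vale.Agent.P328
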