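import Vale.Agent.P328.Anneal
import Vale.Agent.P317.Init

/-! The first and the last stage of the annealing. -/

namespace Vale.Agent.P328

open Finset Vale.Agent.P317

variable {G U : Type} [Fintype G] [DecidableEq G] [DecidableEq U]

def sS (σ : G → Bool) : Finset (G × Bool) := univ.filter fun v => v.2 = σ v.1

@[simp] theorem mem_sS {σ : G → Bool} {v : G × Bool} : v ∈ sS σ ↔ v.2 = σ v.1 := by simp [sS]

theorem sS_T (σ : G → Bool) : sS σ ∈ trans univ := by simp [mem_trans]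

theorem card_sS (σ : G → Bool) : (sS σ).card = Fintype.card G := by
  rw [← card_univ]
  refine card_nbij' Prod.fst (fun g => (g, σ g)) (by simp) (fun g _ => by simp) ?_ fun g _ => rfl
  rintro ⟨g, b⟩ h
  simp only [mem_coe, mem_sS] at h
  simp [h]

def cB (B : G × Bool → Option U) (I : Finset (G × Bool)) (c : Option U) : ℕ :=
  (I.filter fun v => B v = c).card

def kz (σ rl : G → Bool) (A : ℕ) (v : G × Bool) : ℕ := if v.2 = σ v.1 then cond (rl v.1) (2 * A) A else 0

def cost (a b : Option U) : ℕ := if a = b then 0 else (if a = none then 0 else 1) + if b = none then 0 else 1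

structure Lay (X : Base G) (B : G × Bool → Option U) (σ rl : G → Bool) (wb : ℕ) (ρ : ℝ) : Prop where
  val : ∀ I, X.w I ≠ 0 → cB B I = cB B (sS σ)
  lo : ∀ I, cB B I = cB B (sS σ) → (sS σ \ I).card ≤ 3 → (I \ sS σ).card ≤ 3 → X.w (sS σ) ≤ ρ * X.w I
  hi : ∀ I, (sS σ \ I).card ≤ 3 → (I \ sS σ).card ≤ 3 → X.w I ≤ ρ * X.w (sS σ)
  one : 1 ≤ X.w (sS σ)
  ub : ∀ I, X.w I ≤ 2 ^ wb
  dum : ∀ g b, rl g = false → B (g, b) ≠ none → B (g, !b) = none
  two : ∀ g b, B (g, b) ≠ none → B (g, !b) ≠ B (g, b)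
  ex : ∀ v b, B v ≠ none → ∃ g, rl g = false ∧ B (g, xor b (σ g)) = B v

variable {X : Base G} {B : G × Bool → Option U} {σ rl : G → Bool} {wb A : ℕ} {ρ η0 : ℝ}

theorem sum_split (T : Finset (Finset (G × Bool)))
    (hinj : Set.InjOn (sl false) (T : Set (Finset (G × Bool)))) (k : G × Bool → ℕ) (e : ℕ)
    (ub : ∀ I, X.w I ≤ 2 ^ wb) (hη : 2 ^ Fintype.card G * 2 ^ wb ≤ η0 * 2 ^ A)
    (P : Finset (G × Bool) → Prop) [DecidablePred P]
    (h : ∀ I ∈ T, X.w I ≠ 0 → ¬ P I → fe k I + A ≤ e) :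
    ∑ I ∈ T, wt X k I ≤ ∑ I ∈ T.filter P, wt X k I + η0 * 2 ^ e := by
  rw [← sum_filter_add_sum_filter_not T P]
  refine add_le_add_right ((sum_le_card_nsmul _ _ (2 ^ wb * 2 ^ e / 2 ^ A) fun I hI => ?_).trans ?_) _
  · rw [mem_filter] at hI
    by_cases h0 : X.w I = 0
    · rw [wt, h0, zero_mul]; positivity
    rw [wt, le_div_iff₀ (by positivity), mul_assoc, ← pow_add]
    exact mul_le_mul (ub I) (pow_le_pow_right₀ (by norm_num) (h I hI.1 h0 hI.2)) (by positivity)
      (by positivity)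
  · have c2 : (T.filter fun I => ¬ P I).card ≤ 2 ^ Fintype.card G := by
      have := card_le_card_of_injOn (t := univ) (sl false) (fun I _ => by simp) hinj
      exact (card_filter_le _ _).trans (by simpa using this)
    have c3 : ((T.filter fun I => ¬ P I).card : ℝ) ≤ 2 ^ Fintype.card G := by exact_mod_cast c2
    rw [nsmul_eq_mul, ← mul_div_assoc, div_le_iff₀ (by positivity), ← mul_assoc, mul_right_comm η0]
    exact mul_le_mul_of_nonneg_right ((mul_le_mul_of_nonneg_right c3 (by positivity)).trans hη)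
      (by positivity)

theorem fe_kz (I : Finset (G × Bool)) :
    fe (kz σ rl A) I + fe (kz σ rl A) (sS σ \ I) = fe (kz σ rl A) (sS σ) := by
  unfold fe
  rw [← sum_inter_add_sum_sdiff (sS σ) I, inter_comm]
  congr 1
  exact (sum_subset inter_subset_left fun v h1 h2 => if_neg fun h => h2 (by simp [h, h1])).symm

theorem kz_ge {v : G × Bool} (h : v ∈ sS σ) : A ≤ kz σ rl A v := by
  rw [kz, if_pos (mem_sS.1 h)]; cases rl v.1 <;> simp; omega

theorem Lay.Z0 (H : Lay X B σ rl wb ρ) (hη : 2 ^ Fintype.card G * 2 ^ wb ≤ η0 * 2 ^ A) :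
    wt X (kz σ rl A) (sS σ) ≤ Zk X (kz σ rl A) ∧
      Zk X (kz σ rl A) ≤ (1 + η0) * wt X (kz σ rl A) (sS σ) := by
  refine ⟨single_le_sum (f := wt X (kz σ rl A)) (fun _ _ => wt_nonneg _ _ _) (sS_T σ), ?_⟩
  have h0 : 0 ≤ η0 := by
    by_contra hc
    have : η0 * 2 ^ A < 0 := mul_neg_of_neg_of_pos (not_le.1 hc) (by positivity)
    have : (0 : ℝ) < 2 ^ Fintype.card G * 2 ^ wb := by positivity
    linarith
  refine (sum_split _ inj_T _ (fe (kz σ rl A) (sS σ)) H.ub hη (· = sS σ) fun I hI _ h => ?_).trans ?_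
  · have : (sS σ \ I).Nonempty := by
      rw [sdiff_nonempty]
      intro hs
      refine h (ext fun v => ⟨fun hv => ?_, fun hv => hs hv⟩)
      by_contra hc
      have h1 : (v.1, σ v.1) ∈ I := hs (by simp)
      have h2 := ((mem_trans.1 hI) v.1).1 (mem_univ _)
      obtain ⟨g, b⟩ := v
      cases b <;> cases h3 : σ g <;> simp_all
    obtain ⟨v, hv⟩ := this
    rw [← fe_kz I]
    exact Nat.add_le_add_left ((kz_ge (mem_sdiff.1 hv).1).trans
      (single_le_sum (f := kz σ rl A) (fun _ _ => Nat.zero_le _) hv)) _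
  · rw [filter_eq', if_pos (sS_T σ), sum_singleton, add_mul, one_mul, wt]
    exact add_le_add_right (mul_le_mul_of_nonneg_left
      (le_mul_of_one_le_left (by positivity) H.one) h0) _

omit [Fintype G] in
theorem ex_diff {I J : Finset (G × Bool)} (h : cB B I = cB B J) {v : G × Bool} (h1 : v ∈ I) (h2 : v ∉ J) :
    ∃ u ∈ J, u ∉ I ∧ B u = B v := by
  by_contra hc
  push Not at hc
  refine absurd (congrFun h (B v)) (card_lt_card ⟨fun u hu => ?_, fun hs => ?_⟩).ne'
  · rw [mem_filter] at hu ⊢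
    exact ⟨by_contra fun h3 => hc u hu.1 h3 hu.2, hu.2⟩
  · exact h2 (mem_filter.1 (hs (mem_filter.2 ⟨h1, rfl⟩))).1

theorem N_side {i j : G} {I : Finset (G × Bool)} (h : I ∈ Nset i j) :
    (∀ b, (i, b) ∈ I) ∧ (∀ b, (j, b) ∉ I) ∧ ∀ g b, g ≠ i → g ≠ j → ((g, !b) ∈ I ↔ (g, b) ∉ I) := by
  obtain ⟨a1, a2, a3, a4, a5⟩ := mem_Nset.1 h
  refine ⟨fun b => by cases b <;> assumption, fun b => by cases b <;> assumption, fun g b h1 h2 => ?_⟩
  have := a5 g h1 h2
  cases b <;> simp [this]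

theorem Lay.cost_le (H : Lay X B σ rl wb ρ) {i j : G} {I : Finset (G × Bool)} (hI : I ∈ Nset i j)
    (h : cB B I = cB B (sS σ)) : kz σ rl A (j, σ j) + A * cost (B (i, !σ i)) (B (j, σ j)) ≤
      fe (kz σ rl A) (sS σ \ I) := by
  obtain ⟨a1, a2, a3⟩ := N_side hI
  have hj : (j, σ j) ∈ sS σ \ I := by simp [a2]
  rw [fe, ← add_sum_erase _ _ hj, cost]
  refine Nat.add_le_add_left ?_ _
  by_cases hab : B (i, !σ i) = B (j, σ j)
  · simp [hab]
  obtain ⟨⟨g, b⟩, u1, u2, u3⟩ := ex_diff h (a1 (!σ i)) (by simp)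
  obtain ⟨⟨g', b'⟩, v1, v2, v3⟩ := ex_diff h.symm (v := (j, σ j)) (by simp) (a2 _)
  obtain rfl : b = σ g := mem_sS.1 u1
  obtain rfl : b' = !σ g' := Bool.eq_not_iff.2 (by simpa using v2)
  have e1 : (g, σ g) ∈ (sS σ \ I).erase (j, σ j) := by
    simp only [mem_erase, mem_sdiff]
    exact ⟨fun e => hab (by rw [← u3, e]), u1, u2⟩
  have e2 : (g', σ g') ∈ (sS σ \ I).erase (j, σ j) := by
    have f1 : g' ≠ j := fun e => a2 _ (e ▸ v1)
    simp only [mem_erase, mem_sdiff, mem_sS, true_and, ne_eq, Prod.mk.injEq, f1, false_and,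
      not_false_eq_true]
    exact (a3 g' _ (fun e => hab (by rw [← v3, e])) f1).1 v1
  have s1 := single_le_sum (f := kz σ rl A) (fun _ _ => Nat.zero_le _) e1
  have s2 := kz_ge (rl := rl) (A := A) u1
  rw [if_neg hab]
  split_ifs with c1 c2 c2
  · omega
  · omega
  · omega
  by_cases hg : g = g'
  · subst hg
    have : rl g = true := by
      by_contra hc
      exact c2 (v3 ▸ H.dum g _ (by simpa using hc) (u3 ▸ c1))
    simp only [kz, if_true, this, cond_true] at s1
    simp only [kz]; omega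
  · have s3 := kz_ge (σ := σ) (rl := rl) (A := A) (v := (g', σ g')) (by simp)
    have s4 := sum_le_sum_of_subset (f := kz σ rl A) (s := {(g, σ g), (g', σ g')})
      (insert_subset e1 (singleton_subset_iff.2 e2))
    rw [sum_pair (by simp [hg])] at s4
    omega

theorem lower {i j : G} (hij : i ≠ j) (F : Finset G) (hi : i ∉ F) (hj : j ∉ F)
    (h : ∀ c, (if B (i, !σ i) = c then 1 else 0) + ∑ g ∈ F, (if B (g, !σ g) = c then 1 else 0) =
      (if B (j, σ j) = c then 1 else 0) + ∑ g ∈ F, if B (g, σ g) = c then 1 else 0) :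
    ∃ I ∈ Nset i j, cB B I = cB B (sS σ) ∧ (sS σ \ I).card ≤ F.card + 1 ∧ (I \ sS σ).card ≤ F.card + 1 ∧
      fe (kz σ rl A) (sS σ \ I) = kz σ rl A (j, σ j) + ∑ g ∈ F, kz σ rl A (g, σ g) := by
  let D := (insert j F).image fun g => (g, σ g)
  let D' := (insert i F).image fun g => (g, !σ g)
  have i1 : Function.Injective fun g => (g, σ g) := fun _ _ e => (Prod.mk.inj e).1
  have i2 : Function.Injective fun g => (g, !σ g) := fun _ _ e => (Prod.mk.inj e).1
  have m1 : ∀ g b, (g, b) ∈ D ↔ (g = j ∨ g ∈ F) ∧ b = σ g := fun g b => by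
    simp only [D, mem_image, mem_insert, Prod.mk.injEq]
    exact ⟨fun ⟨a, h1, h2, h3⟩ => h2 ▸ ⟨h1, h3.symm⟩, fun h => ⟨g, h.1, rfl, h.2.symm⟩⟩
  have m2 : ∀ g b, (g, b) ∈ D' ↔ (g = i ∨ g ∈ F) ∧ b = !σ g := fun g b => by
    simp only [D', mem_image, mem_insert, Prod.mk.injEq]
    exact ⟨fun ⟨a, h1, h2, h3⟩ => h2 ▸ ⟨h1, h3.symm⟩, fun h => ⟨g, h.1, rfl, h.2.symm⟩⟩
  have e1 : sS σ \ (D' ∪ sS σ \ D) = D := by
    ext ⟨g, b⟩
    simp only [mem_sdiff, mem_union, m1, m2, mem_sS]
    cases b <;> cases σ g <;> simp [or_iff_not_imp_left]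
  have e2 : (D' ∪ sS σ \ D) \ sS σ = D' := by
    ext ⟨g, b⟩
    simp only [mem_sdiff, mem_union, m1, m2, mem_sS]
    cases b <;> cases σ g <;> simp
  refine ⟨D' ∪ sS σ \ D, ?_, ?_, ?_, ?_, ?_⟩
  · simp only [mem_Nset, mem_union, mem_sdiff, m1, m2, mem_sS]
    refine ⟨?_, ?_, ?_, ?_, fun g h1 h2 => ?_⟩
    · cases σ i <;> simp [hij, hi]
    · cases σ i <;> simp [hij, hi]
    · cases σ j <;> simp [hij.symm, hj]
    · cases σ j <;> simp [hij.symm, hj]
    · cases σ g <;> simp [h1, h2]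
  · funext c
    have d1 : Disjoint D' (sS σ \ D) := disjoint_left.2 fun ⟨g, b⟩ h1 h2 => by
      have := (m2 g b).1 h1
      simp_all
    have d2 : D ⊆ sS σ := fun ⟨g, b⟩ h1 => mem_sS.2 ((m1 g b).1 h1).2
    simp only [cB, card_filter]
    rw [sum_union d1, ← sum_sdiff d2, add_comm, sum_image i1.injOn, sum_image i2.injOn,
      sum_insert hi, sum_insert hj, h c]
  · rw [e1]; exact card_image_le.trans (card_insert_le _ _)
  · rw [e2]; exact card_image_le.trans (card_insert_le _ _)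
  · rw [e1, fe, sum_image i1.injOn, sum_insert hj]

theorem Lay.low (H : Lay X B σ rl wb ρ) {i j : G} (hij : i ≠ j) :
    ∃ I ∈ Nset i j, cB B I = cB B (sS σ) ∧ (sS σ \ I).card ≤ 3 ∧ (I \ sS σ).card ≤ 3 ∧
      fe (kz σ rl A) (sS σ \ I) = kz σ rl A (j, σ j) + A * cost (B (i, !σ i)) (B (j, σ j)) := by
  have hA : B (i, !σ i) ≠ B (j, σ j) → B (i, !σ i) ≠ none → ∃ g, g ≠ i ∧ g ≠ j ∧
      kz σ rl A (g, σ g) = A ∧ B (g, σ g) = B (i, !σ i) ∧ B (g, !σ g) = none := fun h1 h2 => by
    obtain ⟨g, b1, b2⟩ := H.ex _ false h2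
    rw [Bool.false_xor] at b2
    refine ⟨g, fun e => ?_, fun e => h1 (by rw [← b2, e]), by simp [kz, b1], b2, H.dum g _ b1 (b2 ▸ h2)⟩
    subst e
    exact H.two g _ (b2 ▸ h2) b2.symm
  have hB : B (i, !σ i) ≠ B (j, σ j) → B (j, σ j) ≠ none → ∃ g, g ≠ i ∧ g ≠ j ∧
      kz σ rl A (g, σ g) = A ∧ B (g, !σ g) = B (j, σ j) ∧ B (g, σ g) = none := fun h1 h2 => by
    obtain ⟨g, b1, b2⟩ := H.ex _ true h2
    rw [Bool.true_xor] at b2
    refine ⟨g, fun e => h1 (by rw [← b2, e]), fun e => ?_, by simp [kz, b1], b2, ?_⟩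
    · subst e
      exact H.two g _ h2 b2
    · have := H.dum g _ b1 (b2 ▸ h2)
      rwa [Bool.not_not (σ g)] at this
  have key : ∃ F : Finset G, i ∉ F ∧ j ∉ F ∧ F.card ≤ 2 ∧
      (∀ c, (if B (i, !σ i) = c then 1 else 0) + ∑ g ∈ F, (if B (g, !σ g) = c then 1 else 0) =
      (if B (j, σ j) = c then 1 else 0) + ∑ g ∈ F, if B (g, σ g) = c then 1 else 0) ∧
      ∑ g ∈ F, kz σ rl A (g, σ g) = A * cost (B (i, !σ i)) (B (j, σ j)) := by
    by_cases hab : B (i, !σ i) = B (j, σ j)
    · exact ⟨∅, by simp, by simp, by simp, by simp [hab], by simp [cost, hab]⟩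
    by_cases c1 : B (i, !σ i) = none
    · have c2 : B (j, σ j) ≠ none := fun e => hab (c1.trans e.symm)
      obtain ⟨g, b1, b2, b3, b4, b5⟩ := hB hab c2
      exact ⟨{g}, by simp [b1.symm], by simp [b2.symm], by simp,
        fun c => by simp only [sum_singleton, b4, b5, c1, add_comm], by simp [cost, b3, c1, c2, c2.symm]⟩
    obtain ⟨g, b1, b2, b3, b4, b5⟩ := hA hab c1
    by_cases c2 : B (j, σ j) = none
    · exact ⟨{g}, by simp [b1.symm], by simp [b2.symm], by simp,
        fun c => by simp only [sum_singleton, b4, b5, c2, add_comm], by simp [cost, b3, c1, c2]⟩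
    obtain ⟨g', d1, d2, d3, d4, d5⟩ := hB hab c2
    have hg : g ≠ g' := fun e => c2 (by rw [← d4, ← e, b5])
    refine ⟨{g, g'}, by simp [b1.symm, d1.symm], by simp [b2.symm, d2.symm], card_le_two,
      fun c => ?_, ?_⟩
    · simp only [sum_pair hg, b4, b5, d4, d5]; ring
    · simp only [sum_pair hg, b3, d3, cost, hab, c1, c2, if_false]; ring
  obtain ⟨F, f1, f2, f3, f4, f5⟩ := key
  obtain ⟨I, g1, g2, g3, g4, g5⟩ := lower (rl := rl) (A := A) hij F f1 f2 f4
  exact ⟨I, g1, g2, by omega, by omega, by rw [g5, f5]⟩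

theorem card_small (S : Finset (G × Bool)) :
    (S.powerset.filter fun D => D.card ≤ 3).card ≤ (S.card + 1) ^ 3 := by
  have : (S.powerset.filter fun D => D.card ≤ 3) ⊆ (range 4).biUnion fun k => powersetCard k S := by
    intro D hD
    simp only [mem_filter, mem_powerset, mem_biUnion, mem_range, mem_powersetCard] at hD ⊢
    exact ⟨_, by omega, hD.1, rfl⟩
  refine (card_le_card this).trans (card_biUnion_le.trans ?_)
  simp only [card_powersetCard, sum_range_succ, range_zero, sum_empty]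
  have h2 := Nat.choose_le_pow S.card 2
  have h3 := Nat.choose_le_pow S.card 3
  simp only [Nat.choose_zero_right, Nat.choose_one_right]
  nlinarith [Nat.zero_le S.card, Nat.zero_le (S.card ^ 2)]

theorem Lay.good (H : Lay X B σ rl wb ρ) [Fintype U] (hη : 2 ^ Fintype.card G * 2 ^ wb ≤ η0 * 2 ^ A)
    (hη1 : η0 ≤ 1) {s : ℕ} (hs : ρ ≤ 2 ^ s) {R : ℝ}
    (hR : 2 ^ s * ((Fintype.card G + 1) ^ 3 * 2 ^ s + 1) + 8 ≤ R) :
    GoodK X (kz σ rl A)
      (fun i j => 2 ^ (kz σ rl A (j, σ j) + A * cost (B (i, !σ i)) (B (j, σ j)) + s)) R := by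
  obtain ⟨z1, z2⟩ := H.Z0 (A := A) hη
  have h1 := H.one
  have hw : 0 < wt X (kz σ rl A) (sS σ) := by unfold wt; positivity
  refine ⟨hw.trans_le z1, le_trans (le_add_of_nonneg_left (by positivity)) hR, fun _ _ => by positivity,
    fun i j => ?_, fun i j => ?_⟩
  · by_cases hij : i = j
    · left; simp [Nk, hij, Nset_self]
    right
    obtain ⟨I, a1, a2, a3, a4, a5⟩ := H.low (A := A) hij
    have b1 : wt X (kz σ rl A) I ≤ Nk X (kz σ rl A) i j :=
      single_le_sum (f := wt X (kz σ rl A)) (fun _ _ => wt_nonneg _ _ _) a1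
    have b2 := (H.lo I a2 a3 a4).trans (mul_le_mul_of_nonneg_right hs (X.nn I))
    have b3 : wt X (kz σ rl A) (sS σ) ≤
        2 ^ (kz σ rl A (j, σ j) + A * cost (B (i, !σ i)) (B (j, σ j)) + s) * wt X (kz σ rl A) I := by
      rw [wt, wt, ← fe_kz I, ← a5, pow_add, pow_add]
      refine (mul_le_mul_of_nonneg_right b2 (by positivity)).trans (le_of_eq (by ring))
    have b4 := b3.trans (mul_le_mul_of_nonneg_left b1 (by positivity))
    nlinarith
  · set e := kz σ rl A (j, σ j) + A * cost (B (i, !σ i)) (B (j, σ j)) with he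
    have hc : cost (B (i, !σ i)) (B (j, σ j)) ≤ 2 := by unfold cost; split_ifs <;> omega
    by_cases h0 : fe (kz σ rl A) (sS σ) < e
    · have : Nk X (kz σ rl A) i j = 0 := sum_eq_zero fun I hI => by
        by_contra h3
        have h4 := H.cost_le (A := A) hI (H.val I (left_ne_zero_of_mul h3))
        have := fe_kz (σ := σ) (rl := rl) (A := A) I
        omega
      rw [this, mul_zero]
      exact mul_nonneg (le_trans (by positivity) hR) (hw.le.trans z1)
    obtain ⟨d, hd⟩ := Nat.exists_eq_add_of_le (not_lt.1 h0)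
    have s1 := sum_split _ (inj_N i j) (kz σ rl A) d H.ub hη (fun I => (sS σ \ I).card ≤ 3)
      fun I hI h2 h3 => by
        have hj : (j, σ j) ∈ sS σ \ I := by simp [(N_side hI).2.1]
        have f1 := card_nsmul_le_sum ((sS σ \ I).erase (j, σ j)) (kz σ rl A) A fun v hv =>
          kz_ge (mem_sdiff.1 (mem_of_mem_erase hv)).1
        have f2 := add_sum_erase _ (kz σ rl A) hj
        have f3 := fe_kz (σ := σ) (rl := rl) (A := A) I
        rw [card_erase_of_mem hj, smul_eq_mul] at f1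
        have f4 : 3 * A ≤ ((sS σ \ I).card - 1) * A := Nat.mul_le_mul_right _ (by omega)
        have f5 : A * cost (B (i, !σ i)) (B (j, σ j)) ≤ A * 2 := Nat.mul_le_mul_left _ hc
        change _ = fe _ _ at f2
        change _ ≤ ∑ x ∈ _, _ at f1
        omega
    have s2 : ∑ I ∈ (Nset i j).filter (fun I => (sS σ \ I).card ≤ 3), wt X (kz σ rl A) I ≤
        (Fintype.card G + 1) ^ 3 * (2 ^ s * X.w (sS σ) * 2 ^ d) := by
      refine (sum_le_card_nsmul _ _ (2 ^ s * X.w (sS σ) * 2 ^ d) fun I hI => ?_).trans ?_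
      · rw [mem_filter] at hI
        by_cases h3 : X.w I = 0
        · rw [wt, h3, zero_mul]; positivity
        have v := H.val I h3
        have c1 : I.card = (sS σ).card := by
          rw [card_eq_sum_card_fiberwise (f := B) (t := univ) (by simp),
            card_eq_sum_card_fiberwise (f := B) (s := sS σ) (t := univ) (by simp)]
          exact sum_congr rfl fun c _ => congrFun v c
        have c2 := card_sdiff_comm c1
        have h4 := H.cost_le (A := A) hI.1 v
        have := fe_kz (σ := σ) (rl := rl) (A := A) I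
        exact mul_le_mul ((H.hi I hI.2 (by omega)).trans (mul_le_mul_of_nonneg_right hs (by positivity)))
          (pow_le_pow_right₀ (by norm_num) (by omega)) (by positivity) (by positivity)
      · rw [nsmul_eq_mul]
        refine mul_le_mul_of_nonneg_right ?_ (by positivity)
        have := (card_le_card_of_injOn (s := (Nset i j).filter fun I => (sS σ \ I).card ≤ 3)
          (fun I => sS σ \ I) (fun I hI => by simpa using (mem_filter.1 hI).2) fun I hI J hJ h => ?_).trans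
          (card_small (sS σ))
        · rw [card_sS] at this; exact_mod_cast this
        obtain ⟨a1, a2, a3⟩ := N_side (mem_filter.1 hI).1
        obtain ⟨b1, b2, b3⟩ := N_side (mem_filter.1 hJ).1
        have f : ∀ g, (g, σ g) ∈ I ↔ (g, σ g) ∈ J := fun g => by
          have := Finset.ext_iff.1 h (g, σ g)
          simpa [not_iff_not] using this
        ext ⟨g, b⟩
        by_cases hb : b = σ g
        · rw [hb, f]
        by_cases hi : g = i
        · simp [hi, a1, b1]
        by_cases hj : g = j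
        · simp [hj, a2, b2]
        rw [Bool.eq_not_iff.2 hb, a3 g _ hi hj, b3 g _ hi hj, f]
    have s3 : Nk X (kz σ rl A) i j ≤ ((Fintype.card G + 1) ^ 3 * 2 ^ s + 1) * (X.w (sS σ) * 2 ^ d) := by
      have : η0 * 2 ^ d ≤ X.w (sS σ) * 2 ^ d := mul_le_mul_of_nonneg_right (by linarith) (by positivity)
      unfold Nk; linarith
    refine (mul_le_mul_of_nonneg_left s3 (by positivity)).trans (le_trans (le_of_eq ?_)
      (mul_le_mul (le_trans (le_add_of_nonneg_right (by norm_num)) hR) z1 hw.le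
        (le_trans (by positivity) hR)))
    rw [wt, hd, pow_add, pow_add]; ring

def pureT (rl fs : G → Bool) : Finset (Finset (G × Bool)) :=
  (trans univ).filter fun I => ∀ g, rl g = false → (g, fs g) ∈ I

theorem ZL_bounds (ub : ∀ I, X.w I ≤ 2 ^ wb) (hη : 2 ^ Fintype.card G * 2 ^ wb ≤ η0 * 2 ^ A)
    (fs : G → Bool) (hf : ∀ g, rl g = true → fs g = !σ g) {k : G × Bool → ℕ}
    (hk : ∀ v, k v = kz σ rl A v + if v.2 = fs v.1 then 2 * A else 0) :
    (∑ I ∈ pureT rl fs, X.w I) * 2 ^ fe k (sS fs) ≤ Zk X k ∧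
      Zk X k ≤ (∑ I ∈ pureT rl fs, X.w I) * 2 ^ fe k (sS fs) + η0 * 2 ^ fe k (sS fs) := by
  unfold pureT
  have e0 : ∀ I ∈ trans univ, fe k I = ∑ g, if (g, fs g) ∈ I then k (g, fs g) else k (g, !fs g) := by
    intro I hI
    have : fe k I = ∑ v, if v ∈ I then k v else 0 := by rw [fe, ← sum_filter]; simp
    rw [this, Fintype.sum_prod_type]
    refine sum_congr rfl fun g _ => ?_
    have := ((mem_trans.1 hI) g).1 (mem_univ _)
    cases fs g <;> by_cases h : (g, true) ∈ I <;> simp [this, h]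
  have e1 : fe k (sS fs) = ∑ g, k (g, fs g) := by rw [e0 _ (sS_T fs)]; simp
  have r1 : ∀ g, rl g = true → k (g, !fs g) = k (g, fs g) := fun g h => by
    simp [hk, kz, hf g h, h]
  have r2 : ∀ g, rl g = false → k (g, !fs g) + A ≤ k (g, fs g) := fun g h => by
    simp only [hk, kz, h, cond_false, if_true]
    split_ifs <;> simp_all <;> omega
  have e2 : (∑ I ∈ (trans univ).filter fun I => ∀ g, rl g = false → (g, fs g) ∈ I, X.w I) *
      2 ^ fe k (sS fs) = ∑ I ∈ (trans univ).filter fun I => ∀ g, rl g = false → (g, fs g) ∈ I, wt X k I := by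
    rw [sum_mul]
    refine sum_congr rfl fun I hI => ?_
    rw [mem_filter] at hI
    rw [wt, e0 I hI.1, e1]
    congr 2
    refine sum_congr rfl fun g _ => ?_
    split_ifs with h
    · rfl
    · exact (r1 g (by by_contra hc; exact h (hI.2 g (by simpa using hc)))).symm
  rw [e2]
  refine ⟨sum_le_sum_of_subset_of_nonneg (filter_subset _ _) fun _ _ _ => wt_nonneg _ _ _,
    sum_split _ inj_T k _ ub hη _ fun I hI _ h => ?_⟩
  push Not at h
  obtain ⟨g, h1, h2⟩ := h
  rw [e0 I hI, e1, ← add_sum_erase _ _ (mem_univ g), ← add_sum_erase _ _ (mem_univ g), if_neg h2,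
    add_right_comm]
  refine add_le_add (r2 g h1) (sum_le_sum fun g _ => ?_)
  split_ifs
  · exact le_rfl
  · cases h : rl g
    · have := r2 g h; omega
    · exact (r1 g h).le

end Vale.Agent.P328
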