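import Vale.Agent.P328.Loc

/-! The polarized instance attached to a pair of margins. -/

namespace Vale.Agent.P328

open Finset Vale.Agent.P317

abbrev Ce (m n : ℕ) : Type := Option (Fin m) × Option (Fin n)

variable {m n : ℕ} {G : Type} [Fintype G] [DecidableEq G]

namespace Tb

variable (T : Tb m n)

def ex (u : Fin m ⊕ Fin n) : Bool := decide (u ≠ .inl T.o) && !T.sf u

def mar (q : Ce m n × Bool) : Option (Fin m ⊕ Fin n) := cond q.2 (q.1.2.map .inr) (q.1.1.map .inl)

def kc (e : Fin m × Fin n) (u : Fin m ⊕ Fin n) : ℕ := if T.sf u then T.K * T.De e / T.D u else 0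

def kk : Ce m n × Bool → ℕ
  | ((some i, some j), b) => T.kc (i, j) (cond b (.inr j) (.inl i))
  | _ => 0

def tc (u : Fin m ⊕ Fin n) : ℕ := if T.sf u then T.K * T.s u / T.D u else 0

def τ : Option (Fin m ⊕ Fin n) → ℤ
  | none => 0
  | some (.inl i) => T.tc (.inl i)
  | some (.inr j) => T.K * (∑ i, T.kc (i, j) (.inr j) : ℕ) - T.tc (.inr j)

def st (u : Fin m ⊕ Fin n) : ℕ := if T.ex u then T.s u else 0

def ch : Ce m n → ℕ
  | (some _, some _) => 0
  | (some i, none) => T.st (.inl i) + 1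
  | (none, some j) => T.st (.inr j) + 1
  | (none, none) => 1

def nn (y : Fin m × Fin n → ℕ) : Ce m n → ℕ
  | (some i, some j) => y (i, j)
  | _ => 1

def sd (k : Ce m n → ℕ) (q : Ce m n × Bool) : ℕ := cond q.2 (T.K - k q.1) (k q.1)

def cv (μ : ℕ) (y : Fin m × Fin n → ℕ) : ℤ := μ * ∑ q, (T.sd (nn y) q : ℤ) ^ 2

variable (e : G ≃ Ce m n × Fin T.K)

def σ (g : G) : Bool := decide (T.ch (e g).1 ≤ (e g).2)

def rl (g : G) : Bool := (e g).1.1.isSome && (e g).1.2.isSome

def fs (g : G) : Bool := !T.rl e g && decide (1 ≤ (e g).2.val)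

def P0 (μ : ℕ) (ε : ℝ) : PS (G × Bool) (Ce m n × Bool) (Option (Fin m ⊕ Fin n)) (Option (Fin m ⊕ Fin n)) :=
  ⟨fun v => ((e v.1).1, v.2), mar, Option.filter T.ex, fun _ => 0, T.kk, T.τ, T.K, μ, ε⟩

def P (μ : ℕ) (ε : ℝ) : PS (G × Bool) (Ce m n × Bool) (Option (Fin m ⊕ Fin n)) (Option (Fin m ⊕ Fin n)) :=
  { T.P0 e μ ε with deg := (T.P0 e μ ε).nb (sS (T.σ e)) }

variable {T} {μ : ℕ} {ε : ℝ}

theorem nq_eq (I : Finset (G × Bool)) (q : Ce m n × Bool) :
    (T.P e μ ε).nq I q = (univ.filter fun a => (e.symm (q.1, a), q.2) ∈ I).card := by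
  symm
  refine card_nbij' (fun a => (e.symm (q.1, a), q.2)) (fun v => (e v.1).2) (fun a ha => ?_) (fun v hv => ?_)
    (fun a _ => by simp) fun v hv => ?_
  · exact mem_filter.2 ⟨(mem_filter.1 ha).2, by simp [P, P0]⟩
  · obtain ⟨h1, rfl⟩ := mem_filter.1 hv
    exact mem_filter.2 ⟨mem_univ _, by simpa [P, P0] using h1⟩
  · obtain ⟨h1, rfl⟩ := mem_filter.1 hv
    simp [P, P0]

theorem nq_sS (s : G → Bool) (q : Ce m n × Bool) :
    (T.P e μ ε).nq (sS s) q = T.sd (fun c => (univ.filter fun a => s (e.symm (c, a)) = false).card) q := by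
  obtain ⟨c, b⟩ := q
  rw [nq_eq, sd]
  cases b
  · simp only [mem_sS, cond_false, eq_comm (a := false)]
  · have := card_filter_add_card_filter_not (s := univ) fun a => s (e.symm (c, a)) = false
    simp only [card_univ, Fintype.card_fin, Bool.not_eq_false] at this
    simp only [mem_sS, cond_true, eq_comm (a := true)]
    omega

theorem card_lt {K c : ℕ} (h : c ≤ K) : (univ.filter fun a : Fin K => a.val < c).card = c := by
  rw [Fin.card_filter_val_lt]; omega

omit [DecidableEq G] in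
theorem nb_eq (I : Finset (G × Bool)) (b : Option (Fin m ⊕ Fin n)) :
    (T.P e μ ε).nb I b = ∑ q, if (mar q).filter T.ex = b then (T.P e μ ε).nq I q else 0 := by
  rw [PS.nb, card_eq_sum_card_fiberwise (f := (T.P e μ ε).cls) (t := univ) (by simp)]
  refine sum_congr rfl fun q _ => ?_
  rw [filter_filter]
  split_ifs with h
  · exact congrArg card (filter_congr fun v _ => ⟨fun h => h.2, fun h' => ⟨by rw [← h, ← h']; rfl, h'⟩⟩)
  · exact card_eq_zero.2 (filter_eq_empty_iff.2 fun v _ h' => h (by rw [← h'.1, ← h'.2]; rfl))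

theorem sum_row {M : Type} [AddCommMonoid M] (f : Ce m n × Bool → M) (i : Fin m) :
    (∑ q, if mar q = some (.inl i) then f q else 0) = ∑ j, f ((some i, j), false) := by
  simp only [Fintype.sum_prod_type, Fintype.sum_bool, mar, cond_true, cond_false]
  rw [sum_eq_single (some i)]
  · refine sum_congr rfl fun j _ => ?_
    cases j <;> simp
  · intro i' _ h
    refine sum_eq_zero fun j _ => ?_
    cases j <;> cases i' <;> simp_all
  · simp

theorem sum_col {M : Type} [AddCommMonoid M] (f : Ce m n × Bool → M) (j : Fin n) :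
    (∑ q, if mar q = some (.inr j) then f q else 0) = ∑ i, f ((i, some j), true) := by
  simp only [Fintype.sum_prod_type, Fintype.sum_bool, mar, cond_true, cond_false]
  refine sum_congr rfl fun i _ => ?_
  rw [sum_eq_single (some j)]
  · cases i <;> simp
  · intro j' _ h
    cases j' <;> cases i <;> simp_all
  · simp

theorem filt {o : Option (Fin m ⊕ Fin n)} {u : Fin m ⊕ Fin n} :
    o.filter T.ex = some u ↔ T.ex u = true ∧ o = some u := by
  rw [Option.filter_eq_some_iff, and_comm]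

structure OK2 (T : Tb m n) (x : ℕ) : Prop where
  hm : m + 1 ≤ x
  hn : n + 1 ≤ x
  exs : ∀ u, T.ex u = true → T.s u + 2 ≤ T.K
  sfs : ∀ u, T.sf u = true → T.s u ≤ T.K * T.D u
  K2 : 2 ≤ T.K

variable {x : ℕ} {H : Fin m ⊕ Fin n → ℕ}

theorem OK2.ch_lt (h : T.OK2 x) (c : Ce m n) : T.ch c < T.K := by
  have a : ∀ u, T.st u + 1 < T.K := fun u => by
    have := h.K2
    unfold st; split_ifs with h1
    · exact h.exs u h1
    · omega
  have := h.K2
  rcases c with ⟨_ | i, _ | j⟩ <;> simp only [ch, a] <;> omega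

theorem OK2.nq0 (h : T.OK2 x) (q : Ce m n × Bool) : (T.P e μ ε).nq (sS (T.σ e)) q = T.sd T.ch q := by
  rw [nq_sS]
  congr 1
  funext c
  simpa [σ] using card_lt (h.ch_lt c).le

theorem OK2.valid (h : T.OK2 x) {s : G → Bool} {y : Fin m × Fin n → ℕ} (hy : ∀ c, y c ≤ T.K)
    (hs : ∀ q, (T.P e μ ε).nq (sS s) q = T.sd (nn y) q) : (T.P e μ ε).valid (sS s) ↔ T.Ex y := by
  have a : (∀ u, (T.P e μ ε).nb (sS s) (some u) = (T.P e μ ε).nb (sS (T.σ e)) (some u)) ↔ T.Ex y := by
    refine forall_congr' fun u => ?_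
    simp only [nb_eq, hs, h.nq0 e, filt]
    have b : T.ex u = true ↔ u ≠ .inl T.o ∧ T.sf u = false := by simp [ex]
    rw [← and_imp, ← b]
    by_cases hu : T.ex u = true
    swap
    · simp [hu]
    simp only [hu, true_and, true_imp_iff]
    rcases u with i | j
    · simp [sum_row, sd, nn, ch, st, hu, mg, add_comm]
    · have c : ∑ i, (T.K - y (i, j)) + ∑ i, y (i, j) = m * T.K := by
        rw [← sum_add_distrib, sum_congr rfl fun i _ => Nat.sub_add_cancel (hy (i, j))]; simp
      have := h.exs _ hu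
      simp only [sum_col, sd, cond_true, Fintype.sum_option, nn, ch, st, hu, if_true, mg, Sum.elim_inr,
        Nat.sub_zero, sum_const, card_univ, Fintype.card_fin, smul_eq_mul]
      omega
  rw [← a]
  refine ⟨fun h u => h _, fun h b => ?_⟩
  rcases b with _ | u
  · have c1 := PS.card_eq (P := T.P e μ ε) (sS s)
    have c2 := PS.card_eq (P := T.P e μ ε) (sS (T.σ e))
    rw [card_sS, Fintype.sum_option] at c1 c2
    rw [sum_congr rfl fun u _ => h u] at c1
    change _ = (T.P e μ ε).nb (sS (T.σ e)) none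
    omega
  · exact h u

theorem kk_none {q : Ce m n × Bool} (h : mar q = none) : T.kk q = 0 := by
  rcases q with ⟨⟨_ | i, _ | j⟩, _ | _⟩ <;> simp_all [mar, kk]

omit [DecidableEq G] in
theorem eZ_eq {I : Finset (G × Bool)} {y : Fin m × Fin n → ℕ} (hy : ∀ c, y c ≤ T.K)
    (hs : ∀ q, (T.P e μ ε).nq I q = T.sd (nn y) q) : (T.P e μ ε).eZ I = T.cv μ y + ∑ u, T.t y u ^ 2 := by
  simp only [PS.eZ, PS.tu, hs, cv, Fintype.sum_option]
  change _ + ((∑ q, (if mar q = none then (T.kk q : ℤ) * _ else 0) - 0) ^ 2 + ∑ u, (∑ q,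
    (if mar q = some u then (T.kk q : ℤ) * _ else 0) - T.τ (some u)) ^ 2) = _
  rw [sum_eq_zero (s := univ) (f := fun q => if mar q = none then _ else _) fun q _ => by
    split_ifs with h <;> simp [kk_none, *]]
  simp only [sub_zero, ne_eq, OfNat.ofNat_ne_zero, not_false_eq_true, zero_pow, zero_add]
  congr 1
  refine sum_congr rfl fun u _ => ?_
  rcases u with i | j
  · simp only [sum_row, Fintype.sum_option, kk, τ, t, kc, tc, sd, nn, cond_false, mg, Sum.elim_inl]
    split_ifs <;> simp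
  · rw [← neg_sq]
    simp only [sum_col, Fintype.sum_option, kk, τ, t, kc, tc, sd, nn, cond_true, mg, Sum.elim_inr]
    split_ifs
    · push_cast [Nat.cast_sub (hy _)]
      simp only [mul_sub, sum_sub_distrib, ← sum_mul]
      ring
    · simp

theorem OK.kc_le (h : T.OK x H) {c : Fin m × Fin n} {u : Fin m ⊕ Fin n} (hu : inc c u) : T.kc c u ≤ T.K := by
  unfold kc; split_ifs with h1
  · exact Nat.div_le_of_le_mul (by rw [mul_comm]; exact Nat.mul_le_mul_right _ (h.le c u hu h1))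
  · omega

theorem OK.kk_le (h : T.OK x H) (q : Ce m n × Bool) : T.kk q ≤ T.K := by
  rcases q with ⟨⟨_ | i, _ | j⟩, _ | _⟩ <;> simp only [kk, Nat.zero_le]
  exacts [h.kc_le (Or.inl rfl), h.kc_le (Or.inr rfl)]

theorem OK2.card (h : T.OK2 x) : Fintype.card (Ce m n × Bool) ≤ 2 * x ^ 2 := by
  have := Nat.mul_le_mul h.hm h.hn
  simp only [Fintype.card_prod, Fintype.card_option, Fintype.card_fin, Fintype.card_bool]
  nlinarith

theorem OK.ps (h : T.OK x H) (h2 : T.OK2 x) (h0 : 0 ≤ ε) (h1 : ε < 1) (c1 : 4 * (T.K : ℝ) ^ 2 * ε ≤ 1)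
    (c2 : 2 * μ * ε ≤ 1) (c3 : 4 * (T.K : ℝ) ^ 4 * ε * (2 * x ^ 2) ≤ μ) : (T.P e μ ε).OK T.K := by
  refine ⟨fun q => ?_, h.kk_le, h0, h1, c1, c2, le_trans (mul_le_mul_of_nonneg_left ?_ ?_) c3⟩
  · exact (nq_eq e (μ := μ) (ε := ε) univ q).trans (by simp; rfl)
  · exact_mod_cast h2.card
  · change 0 ≤ 4 * (T.K : ℝ) ^ 4 * ε
    positivity

omit [DecidableEq G] in
theorem OK.tu_le (h : T.OK x H) (h2 : T.OK2 x) (hP : (T.P e μ ε).OK T.K) (I : Finset (G × Bool))
    (u : Option (Fin m ⊕ Fin n)) : |(T.P e μ ε).tu I u| ≤ (4 * x ^ 2 * T.K ^ 2 : ℕ) := by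
  have a1 : ∀ u, T.tc u ≤ T.K ^ 2 := fun u => by
    unfold tc; split_ifs with h1
    · exact Nat.div_le_of_le_mul (by nlinarith [Nat.mul_le_mul_left T.K (h2.sfs u h1)])
    · omega
  have hx := h2.hm
  have a2 : |T.τ u| ≤ (2 * x ^ 2 * T.K ^ 2 : ℕ) := by
    have b : T.K ^ 2 ≤ x ^ 2 * T.K ^ 2 := Nat.le_mul_of_pos_left _ (Nat.pow_pos (by omega))
    rcases u with _ | i | j
    · simp [τ]; positivity
    · have := a1 (.inl i)
      simp only [τ, Nat.abs_cast]; exact_mod_cast (by nlinarith)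
    · have b1 := a1 (.inr j)
      have b2 : ∑ i, T.kc (i, j) (.inr j) ≤ x ^ 2 * T.K :=
        (sum_le_card_nsmul _ _ T.K fun i _ => h.kc_le (Or.inr rfl)).trans (by
          simp only [card_univ, Fintype.card_fin, smul_eq_mul]
          exact Nat.mul_le_mul_right _ (by nlinarith))
      have b3 := Nat.mul_le_mul_left T.K b2
      refine (abs_sub _ _).trans ?_
      rw [← Nat.cast_mul, Nat.abs_cast, Nat.abs_cast]
      exact_mod_cast (by nlinarith)
  refine (abs_sub _ _).trans ((add_le_add (b := ((2 * x ^ 2 * T.K ^ 2 : ℕ) : ℤ)) ?_ a2).trans (le_of_eq (by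
    push_cast; ring)))
  rw [abs_of_nonneg (sum_nonneg fun q _ => by split_ifs <;> positivity)]
  refine (sum_le_card_nsmul _ _ ((T.K : ℤ) ^ 2) fun q _ => ?_).trans ?_
  · split_ifs
    · rw [sq]; exact_mod_cast Nat.mul_le_mul (hP.hk q) (hP.nq_le I q)
    · positivity
  · rw [nsmul_eq_mul]
    exact_mod_cast Nat.mul_le_mul_right _ h2.card

omit [DecidableEq G] in
theorem B_eq (g : G) (b : Bool) : (T.P e μ ε).B (g, b) = (mar ((e g).1, b)).filter T.ex := rfl

omit [DecidableEq G] in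
theorem dum (g : G) (b : Bool) (h : T.rl e g = false) (h' : (T.P e μ ε).B (g, b) ≠ none) :
    (T.P e μ ε).B (g, !b) = none := by
  simp only [B_eq, rl] at *
  rcases hc : (e g).1 with ⟨_ | i, _ | j⟩ <;> cases b <;> simp_all [mar]

omit [DecidableEq G] in
theorem two (g : G) (b : Bool) (h' : (T.P e μ ε).B (g, b) ≠ none) :
    (T.P e μ ε).B (g, !b) ≠ (T.P e μ ε).B (g, b) := by
  obtain ⟨u, hu⟩ := Option.ne_none_iff_exists'.1 h'
  rw [hu]
  simp only [B_eq, ne_eq, filt] at *
  rcases hc : (e g).1 with ⟨_ | i, _ | j⟩ <;> cases b <;> cases u <;> simp_all [mar]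

omit [DecidableEq G] in
theorem OK2.exd (h : T.OK2 x) (v : G × Bool) (b : Bool) (h' : (T.P e μ ε).B v ≠ none) :
    ∃ g, T.rl e g = false ∧ (T.P e μ ε).B (g, xor b (T.σ e g)) = (T.P e μ ε).B v := by
  obtain ⟨u, hu⟩ := Option.ne_none_iff_exists'.1 h'
  have h1 : T.ex u = true := (filt.1 hu).1
  have key : ∀ (c : Ce m n) (s : Bool), 1 ≤ T.ch c → ∃ a, T.σ e (e.symm (c, a)) = s := fun c s hc => by
    have := h.ch_lt c
    cases s
    · exact ⟨⟨0, by omega⟩, by simp [σ]; omega⟩
    · exact ⟨⟨_, this⟩, by simp [σ]⟩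
  rw [hu]
  rcases u with i | j
  · obtain ⟨a, ha⟩ := key (some i, none) b (by simp [ch])
    exact ⟨e.symm ((some i, none), a), by simp [rl], by simp [ha, B_eq, mar, h1]⟩
  · obtain ⟨a, ha⟩ := key (none, some j) (!b) (by simp [ch])
    exact ⟨e.symm ((none, some j), a), by simp [rl], by simp [ha, B_eq, mar, h1]⟩

omit [Fintype G] [DecidableEq G] in
theorem fs_rl (g : G) (h : T.rl e g = true) : T.fs e g = !T.σ e g := by
  simp only [fs, h, σ]
  simp only [rl] at h
  rcases hc : (e g).1 with ⟨_ | i, _ | j⟩ <;> simp_all [ch]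

theorem OK2.pure (h : T.OK2 x) :
    ∑ I ∈ pureT (T.rl e) (T.fs e), (T.P e μ ε).w I =
      (T.K.factorial ^ (m * n) * (T.K - 1).factorial ^ (m + n + 1) : ℕ) *
        ∑ y ∈ Fintype.piFinset fun _ => range (T.K + 1), T.f ε (T.cv μ) y := by
  classical
  unfold pureT
  let s : (Fin m × Fin n → Finset (Fin T.K)) → G → Bool := fun Y g =>
    match (e g).1 with
    | (some i, some j) => decide ((e g).2 ∉ Y (i, j))
    | _ => decide (1 ≤ (e g).2.val)
  have hK := h.K2
  have hq : ∀ Y q, (T.P e μ ε).nq (sS (s Y)) q = T.sd (nn fun c => (Y c).card) q := fun Y q => by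
    rw [nq_sS]
    congr 1
    funext c
    have := card_lt (K := T.K) (c := 1) (by omega)
    rcases c with ⟨_ | i, _ | j⟩ <;> simp only [s, nn, Equiv.apply_symm_apply] <;> simpa using this
  have hY : ∀ (Y : Fin m × Fin n → Finset (Fin T.K)) c, (Y c).card ≤ T.K := fun Y c => by
    simpa using card_le_univ (Y c)
  rw [← sum_bij (s := univ) (fun Y _ => sS (s Y)) (f := fun Y => ((∏ c, (Y c).card.factorial *
    (T.K - (Y c).card).factorial) * (T.K - 1).factorial ^ (m + n + 1) : ℕ) *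
      T.f ε (T.cv μ) fun c => (Y c).card)]
  · rw [← sum_fiberwise_of_maps_to (t := Fintype.piFinset fun _ => range (T.K + 1))
      (g := fun Y c => (Y c).card) fun Y _ => by simpa [Nat.lt_succ_iff] using hY Y, mul_sum]
    refine sum_congr rfl fun y hy => ?_
    have e1 : (univ.filter fun Y : Fin m × Fin n → Finset (Fin T.K) => (fun c => (Y c).card) = y) =
        Fintype.piFinset fun c => powersetCard (y c) univ := by
      ext Y; simp [funext_iff]
    rw [sum_congr (s₁ := Finset.filter _ _) rfl (g := fun _ => ((∏ c, (y c).factorial *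
      (T.K - y c).factorial) * (T.K - 1).factorial ^ (m + n + 1) : ℕ) * T.f ε (T.cv μ) y) fun Y hY => by
        rw [← (mem_filter.1 hY).2], sum_const, nsmul_eq_mul, e1, ← mul_assoc, ← Nat.cast_mul,
      ← mul_assoc, Fintype.card_piFinset, ← prod_mul_distrib, prod_congr rfl (g := fun _ => T.K.factorial)
        fun c _ => by
          rw [card_powersetCard, card_univ, Fintype.card_fin, ← mul_assoc,
            Nat.choose_mul_factorial_mul_factorial (Nat.lt_succ_iff.1 (mem_range.1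
              (Fintype.mem_piFinset.1 hy c)))]]
    simp
  · intro Y _
    refine mem_filter.2 ⟨sS_T _, fun g hg => mem_sS.2 ?_⟩
    simp only [fs, hg, s]
    simp only [rl] at hg
    rcases hc : (e g).1 with ⟨_ | i, _ | j⟩ <;> simp_all
  · intro Y _ Y' _ hh
    funext c
    ext a
    have := Finset.ext_iff.1 hh (e.symm ((some c.1, some c.2), a), false)
    simpa [s] using this
  · intro I hI
    rw [mem_filter] at hI
    refine ⟨fun c => univ.filter fun a => (e.symm ((some c.1, some c.2), a), false) ∈ I, mem_univ _, ?_⟩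
    ext ⟨g, b⟩
    have a1 := trans_not hI.1 (mem_univ g)
    have a2 := hI.2 g
    obtain ⟨⟨c, a⟩, rfl⟩ := e.symm.surjective g
    simp only [fs, rl, Equiv.apply_symm_apply] at a2
    simp only [mem_sS, s, Equiv.apply_symm_apply]
    have a3 := a1 false
    clear a1 hI hq hY
    rcases c with ⟨_ | i, _ | j⟩ <;> cases b <;> by_cases a4 : 1 ≤ a.val <;>
      simp [a4] at a2 a3 ⊢ <;> tauto
  · intro Y _
    rw [PS.w, f, if_congr (h.valid e (hY Y) (hq Y)) rfl rfl, PS.w1, eZ_eq e (hY Y) (hq Y)]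
    split_ifs
    swap
    · simp
    congr 1
    simp only [hq, Fintype.prod_prod_type, Fintype.prod_bool, Fintype.prod_option, sd, nn, cond_true,
      cond_false, show (T.P e μ ε).M = T.K from rfl, Nat.sub_sub_self (hY _ _),
      Nat.sub_sub_self (show 1 ≤ T.K by omega), prod_mul_distrib]
    simp; ring

end Tb

end Vale.Agent.P328
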