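import Vale.Agent.P328.Wt
import Vale.Agent.P328.Init
import Vale.Agent.P328.Apx

/-! Local comparison of weights, and integrality. -/

namespace Vale.Agent.P328

open Finset Vale.Agent.P317

theorem LorW.smul {V : Type} [Fintype V] [DecidableEq V] {w : Finset V → ℝ} (h : LorW w) (c : ℝ) :
    LorW fun I => c * w I := by
  obtain ⟨S, h1, hS⟩ := h
  refine ⟨⟨S.x, c • S.l, S.sq⟩, fun m hm a b ha hb => ?_, fun I => congrArg (c * ·) (hS I)⟩
  have hm' : S.Cone m := by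
    induction hm with
    | one => exact Sys.Cone.one
    | mul hy _ ih => exact Sys.Cone.mul hy ih
  have := mul_le_mul_of_nonneg_left (h1 m hm' a b ha hb) (sq_nonneg c)
  simp only [LinearMap.smul_apply, smul_eq_mul]
  linarith

namespace PS

variable {V Cl U Bk : Type} [Fintype V] [DecidableEq V] [Fintype Cl] [DecidableEq Cl] [Fintype U]
  [DecidableEq U] {P : PS V Cl U Bk} {K Tm : ℕ}

omit [DecidableEq V] [Fintype U] [DecidableEq U] in
theorem OK.nq_le (H : P.OK K) (I : Finset V) (q : Cl) : P.nq I q ≤ P.M :=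
  (card_le_card (filter_subset_filter _ (subset_univ I))).trans (H.hM q).le

omit [Fintype V] [DecidableEq V] in
theorem eZ_nonneg (I : Finset V) : 0 ≤ P.eZ I := by unfold eZ; positivity

omit [DecidableEq V] in
theorem OK.eZ_le (H : P.OK K) (hT : ∀ I u, |P.tu I u| ≤ Tm) (I : Finset V) :
    P.eZ I ≤ (P.μ * (Fintype.card Cl * P.M ^ 2) + Fintype.card U * Tm ^ 2 : ℕ) := by
  push_cast
  refine add_le_add (mul_le_mul_of_nonneg_left ((sum_le_card_nsmul _ _ _ fun q _ => ?_).trans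
    (by simp; rfl)) (by positivity)) ((sum_le_card_nsmul _ _ _ fun u _ => ?_).trans (by simp; rfl))
  · exact_mod_cast Nat.pow_le_pow_left (H.nq_le I q) 2
  · exact sq_le_sq.2 ((hT I u).trans (le_abs_self _))

theorem OK.ins (H : P.OK K) (hT : ∀ I u, |P.tu I u| ≤ Tm)
    (hε : 4 * P.ε * (P.μ * (2 * P.M + 1) + K * (2 * Tm + K) + 1 : ℕ) ≤ 1) {I : Finset V} {s : V} (h : s ∉ I) :
    P.w1 (insert s I) ≤ 2 * P.M * P.w1 I ∧ P.w1 I ≤ 2 * P.M * P.w1 (insert s I) := by
  have h0 := H.h0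
  set N := P.μ * (2 * P.M + 1) + K * (2 * Tm + K) with hN
  have hN0 : (0 : ℝ) ≤ N := Nat.cast_nonneg _
  push_cast at hε
  have hδ : |P.δ I (P.cls s) - 0| ≤ N := by
    have a1 : (P.nq I (P.cls s) : ℤ) ≤ P.M := by exact_mod_cast H.nq_le I _
    have a2 : (P.kk (P.cls s) : ℤ) ≤ K := by exact_mod_cast H.hk _
    have a3 := hT I (P.mar (P.cls s))
    rw [sub_zero, δ, hN]
    push_cast
    refine (abs_add_le _ _).trans (add_le_add ?_ ?_)
    · rw [abs_of_nonneg (by positivity)]; gcongr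
    · rw [abs_mul, abs_of_nonneg (by positivity)]
      refine mul_le_mul a2 ((abs_add_le _ _).trans ?_) (abs_nonneg _) (by positivity)
      rw [abs_mul, abs_two, Nat.abs_cast]; linarith
  obtain ⟨c1, c2⟩ := close_zpow h0 (by nlinarith) hδ
  have c3 : Real.exp (2 * P.ε * N) ≤ 2 :=
    (Real.exp_le_exp.2 (show _ ≤ 1 / 2 by nlinarith)).trans
      ((Real.exp_bound_div_one_sub_of_interval (by norm_num) (by norm_num)).trans (by norm_num))
  have c4 := zpow_pos (show 0 < 1 - P.ε by linarith [H.h1]) (P.δ I (P.cls s))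
  have d1 : (1 : ℝ) ≤ (P.M - P.nq I (P.cls s) : ℕ) := by
    have := H.nq_lt h
    exact_mod_cast (by omega)
  have d2 : ((P.M - P.nq I (P.cls s) : ℕ) : ℝ) ≤ P.M := by exact_mod_cast Nat.sub_le _ _
  have d3 := H.w1_pos I
  rw [zpow_zero] at c1 c2
  rw [H.w1_insert h, mul_comm (P.w1 I), ← mul_assoc]
  constructor
  · refine mul_le_mul_of_nonneg_right ?_ d3.le
    rw [div_le_iff₀ (by linarith)]; nlinarith
  · refine le_mul_of_one_le_left d3.le ?_
    rw [← mul_div_assoc, le_div_iff₀ (by linarith)]; nlinarith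

theorem OK.near (H : P.OK K) (hT : ∀ I u, |P.tu I u| ≤ Tm)
    (hε : 4 * P.ε * (P.μ * (2 * P.M + 1) + K * (2 * Tm + K) + 1 : ℕ) ≤ 1) (hM : 1 ≤ P.M) {I J : Finset V}
    (h1 : (I \ J).card ≤ 3) (h2 : (J \ I).card ≤ 3) : P.w1 I ≤ (2 * P.M) ^ 6 * P.w1 J := by
  have key : ∀ D F : Finset V, Disjoint D F → P.w1 (D ∪ F) ≤ (2 * P.M) ^ D.card * P.w1 F ∧
      P.w1 F ≤ (2 * P.M) ^ D.card * P.w1 (D ∪ F) := by
    intro D F hD
    induction D using Finset.induction_on with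
    | empty => simp
    | insert s D hs ih =>
      rw [disjoint_insert_left] at hD
      obtain ⟨a1, a2⟩ := ih hD.2
      obtain ⟨b1, b2⟩ := H.ins hT hε (I := D ∪ F) (s := s) (by simp [hs, hD.1])
      rw [insert_union, card_insert_of_notMem hs, pow_succ']
      refine ⟨b1.trans ?_, a2.trans ?_⟩
      · rw [mul_assoc (2 * P.M : ℝ)]; exact mul_le_mul_of_nonneg_left a1 (by positivity)
      · rw [mul_comm (2 * P.M : ℝ), mul_assoc]; exact mul_le_mul_of_nonneg_left b2 (by positivity)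
  have a1 := (key (I \ J) (I ∩ J) (disjoint_sdiff_inter _ _)).1
  have a2 := (key (J \ I) (J ∩ I) (disjoint_sdiff_inter _ _)).2
  rw [sdiff_union_inter] at a1 a2
  rw [inter_comm] at a2
  have h3 : (1 : ℝ) ≤ 2 * P.M := by exact_mod_cast (by omega)
  refine a1.trans ((mul_le_mul_of_nonneg_left a2 (by positivity)).trans ?_)
  rw [← mul_assoc, ← pow_add]
  exact mul_le_mul_of_nonneg_right (pow_le_pow_right₀ h3 (by omega)) (H.w1_pos J).le

omit [Fintype V] [DecidableEq V] in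
theorem w1_int {L E : ℕ} (hL : 2 ≤ L) (hε : P.ε = 1 / L) {I : Finset V} {e : ℕ} (he : P.eZ I = e)
    (hE : e ≤ E) : (L : ℝ) ^ E * P.w1 I =
      ((∏ q, (P.M - P.nq I q).factorial) * ((L - 1) ^ e * L ^ (E - e)) : ℕ) := by
  obtain ⟨d, rfl⟩ := Nat.exists_eq_add_of_le hE
  have : (0 : ℝ) < L := by exact_mod_cast (by omega)
  rw [w1, he, hε, zpow_natCast, Nat.add_sub_cancel_left]
  push_cast [Nat.cast_sub (show 1 ≤ L by omega)]
  rw [one_sub_div this.ne', div_pow, pow_add]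
  field_simp

omit [Fintype V] [DecidableEq V] in
theorem w1_bd {L E : ℕ} (hL : 2 ≤ L) (hε : P.ε = 1 / L) {I : Finset V} (hE : P.eZ I ≤ E) :
    1 ≤ (L : ℝ) ^ E * P.w1 I ∧ (L : ℝ) ^ E * P.w1 I ≤ 2 ^ (Fintype.card Cl * P.M ^ 2 + L * E) := by
  obtain ⟨e, he⟩ := Int.eq_ofNat_of_zero_le (eZ_nonneg (P := P) I)
  have h1 : e ≤ E := by omega
  rw [w1_int hL hε he h1]
  constructor
  · have : 0 < L - 1 := by omega
    exact_mod_cast Nat.mul_pos (prod_pos fun _ _ => Nat.factorial_pos _) (by positivity)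
  · have a1 : ∏ q, (P.M - P.nq I q).factorial ≤ 2 ^ (Fintype.card Cl * P.M ^ 2) := by
      refine (prod_le_pow_card _ _ (2 ^ P.M ^ 2) fun q _ => ?_).trans (by rw [← pow_mul, mul_comm]; rfl)
      refine (Nat.factorial_le (Nat.sub_le _ _)).trans ((Nat.factorial_le_pow _).trans ?_)
      rw [sq, pow_mul]
      exact Nat.pow_le_pow_left Nat.lt_two_pow_self.le _
    have a2 : (L - 1) ^ e * L ^ (E - e) ≤ 2 ^ (L * E) := by
      refine (Nat.mul_le_mul_right _ (Nat.pow_le_pow_left (Nat.sub_le _ _) _)).trans ?_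
      rw [← pow_add, Nat.add_sub_cancel' h1, pow_mul]
      exact Nat.pow_le_pow_left Nat.lt_two_pow_self.le _
    rw [pow_add]
    exact_mod_cast Nat.mul_le_mul a1 a2

end PS

variable {G Cl U : Type} [Fintype G] [DecidableEq G] [Fintype Cl] [DecidableEq Cl] [Fintype U]
  [DecidableEq U] {P : PS (G × Bool) Cl (Option U) (Option U)} {K Tm L E : ℕ}

noncomputable def PS.OK.base (H : P.OK K) (c : ℕ) : Base G :=
  ⟨fun I => c * P.w I, fun I => mul_nonneg (Nat.cast_nonneg _) (H.w_nonneg I), H.lor.smul _⟩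

theorem PS.OK.lay (H : P.OK K) (hT : ∀ I u, |P.tu I u| ≤ Tm)
    (hε : 4 * P.ε * (P.μ * (2 * P.M + 1) + K * (2 * Tm + K) + 1 : ℕ) ≤ 1) (hM : 1 ≤ P.M)
    (hL : 2 ≤ L) (he : P.ε = 1 / L) (hE : ∀ I, P.eZ I ≤ E) {σ rl : G → Bool}
    (hd : P.deg = P.nb (sS σ)) (dum : ∀ g b, rl g = false → P.B (g, b) ≠ none → P.B (g, !b) = none)
    (two : ∀ g b, P.B (g, b) ≠ none → P.B (g, !b) ≠ P.B (g, b))
    (ex : ∀ v b, P.B v ≠ none → ∃ g, rl g = false ∧ P.B (g, xor b (σ g)) = P.B v) :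
    Lay (H.base (L ^ E)) P.B σ rl (Fintype.card Cl * P.M ^ 2 + L * E) ((2 * P.M) ^ 6) := by
  have hv : ∀ I, P.valid I ↔ cB P.B I = cB P.B (sS σ) := fun I => by
    rw [PS.valid, hd, funext_iff]; rfl
  have h0 := (hv _).2 rfl
  have hc : (0 : ℝ) ≤ (L ^ E : ℕ) := Nat.cast_nonneg _
  refine ⟨fun I h => ?_, fun I h a b => ?_, fun I a b => ?_, ?_, fun I => ?_, dum, two, ex⟩
  · by_contra hc
    exact h (by simp [PS.OK.base, PS.w, hv, hc])
  · simp only [PS.OK.base, PS.w, if_pos h0, if_pos ((hv I).2 h)]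
    rw [mul_left_comm]
    exact mul_le_mul_of_nonneg_left (H.near hT hε hM a b) hc
  · simp only [PS.OK.base, PS.w, if_pos h0]
    rw [mul_left_comm]
    refine mul_le_mul_of_nonneg_left ?_ hc
    split_ifs
    · exact H.near hT hε hM b a
    · have := H.w1_pos (sS σ); positivity
  · simpa [PS.OK.base, PS.w, h0] using (PS.w1_bd hL he (hE (sS σ))).1
  · simp only [PS.OK.base, PS.w]
    split_ifs
    · simpa using (PS.w1_bd hL he (hE I)).2
    · simp

end Vale.Agent.P328
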