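import Mathlib

/-! The number of tables changes slowly with large margins. -/

namespace Vale.Agent.P328

open Finset

variable {m n : ℕ}

def mg (X : Fin m × Fin n → ℕ) : Fin m ⊕ Fin n → ℕ :=
  Sum.elim (fun i => ∑ j, X (i, j)) fun j => ∑ i, X (i, j)

theorem mg_add (X Y : Fin m × Fin n → ℕ) : mg (X + Y) = mg X + mg Y := by
  funext u; cases u <;> simp [mg, sum_add_distrib]

theorem mg_single (i : Fin m) (j : Fin n) (a : ℕ) :
    mg (Pi.single (i, j) a) = Pi.single (.inl i) a + Pi.single (.inr j) a := by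
  funext u
  cases u <;> simp [mg, Pi.single_apply, ite_and]

theorem le_mg_l (X : Fin m × Fin n → ℕ) (e : Fin m × Fin n) : X e ≤ mg X (.inl e.1) :=
  single_le_sum (f := fun j => X (e.1, j)) (fun _ _ => Nat.zero_le _) (mem_univ e.2)

theorem le_mg_r (X : Fin m × Fin n → ℕ) (e : Fin m × Fin n) : X e ≤ mg X (.inr e.2) :=
  single_le_sum (f := fun i => X (i, e.2)) (fun _ _ => Nat.zero_le _) (mem_univ e.1)

theorem mg_bal (X : Fin m × Fin n → ℕ) : ∑ i, mg X (.inl i) = ∑ j, mg X (.inr j) := by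
  simp only [mg, Sum.elim_inl, Sum.elim_inr]; exact sum_comm

theorem ex_single {ι : Type} [DecidableEq ι] (f : ι → ℕ) (i : ι) (h : f i ≠ 0) :
    ∃ g : ι → ℕ, f = g + Pi.single i 1 := by
  refine ⟨f - Pi.single i 1, funext fun k => ?_⟩
  simp only [Pi.add_apply, Pi.sub_apply, Pi.single_apply]
  split_ifs with e
  · subst e; omega
  · rfl

variable (o : Fin m)

def TS (s : Fin m ⊕ Fin n → ℕ) : Finset (Fin m × Fin n → ℕ) :=
  (Fintype.piFinset fun e => range (s (.inr e.2) + 1)).filter fun X => ∀ u, u ≠ .inl o → mg X u = s u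

theorem mem_TS {s : Fin m ⊕ Fin n → ℕ} {X : Fin m × Fin n → ℕ} :
    X ∈ TS o s ↔ ∀ u, u ≠ .inl o → mg X u = s u := by
  simp only [TS, mem_filter, Fintype.mem_piFinset, mem_range, and_iff_right_iff_imp]
  exact fun h e => Nat.lt_succ_of_le (h (.inr e.2) (by simp) ▸ le_mg_r X e)

theorem TS_congr {s t : Fin m ⊕ Fin n → ℕ} (h : ∀ u, u ≠ .inl o → s u = t u) : TS o s = TS o t := by
  ext X
  simp only [mem_TS]
  exact forall₂_congr fun u hu => by rw [h u hu]

theorem mg_o {s : Fin m ⊕ Fin n → ℕ} {X : Fin m × Fin n → ℕ} (h : X ∈ TS o s) :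
    mg X (.inl o) + ∑ i ∈ univ.erase o, s (.inl i) = ∑ j, s (.inr j) := by
  rw [mem_TS] at h
  rw [← sum_congr rfl fun j _ => h (.inr j) (by simp), ← mg_bal, ← add_sum_erase _ _ (mem_univ o)]
  congr 1
  exact sum_congr rfl fun i hi => (h _ (by simpa using ne_of_mem_erase hi)).symm

theorem TS_up (s : Fin m ⊕ Fin n → ℕ) (i : Fin m) (j : Fin n) :
    ((TS o (s + Pi.single (.inl i) 1 + Pi.single (.inr j) 1)).filter fun X => X (i, j) ≠ 0).card =
      (TS o s).card := by
  symm
  refine card_bij (fun X _ => X + Pi.single (i, j) 1) (fun X hX => ?_) (fun X _ Y _ h => ?_) fun Y hY => ?_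
  · rw [mem_filter, mem_TS]
    refine ⟨fun u hu => ?_, by simp⟩
    rw [mg_add, mg_single, ← add_assoc]
    simp [(mem_TS o).1 hX u hu]
  · exact add_right_cancel h
  · rw [mem_filter, mem_TS] at hY
    obtain ⟨Z, rfl⟩ := ex_single Y (i, j) hY.2
    refine ⟨Z, (mem_TS o).2 fun u hu => ?_, rfl⟩
    have := hY.1 u hu
    rw [mg_add, mg_single, ← add_assoc] at this
    simpa using this

theorem TS_zero (s : Fin m ⊕ Fin n → ℕ) (i : Fin m) (j : Fin n) {l : ℕ}
    (h : ∀ X ∈ TS o s, n * l ≤ mg X (.inl i) ∧ m * l ≤ mg X (.inr j)) :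
    ((TS o s).filter fun X => X (i, j) = 0).card * l ≤ (TS o s).card * (m * n) := by
  let r : (Fin m × Fin n → ℕ) → (Fin m × Fin n → ℕ) → Fin m × Fin n → Prop := fun X Y e =>
    X + Pi.single (i, j) (Y (i, j)) + Pi.single e (Y (i, j)) =
      Y + Pi.single (i, e.2) (Y (i, j)) + Pi.single (e.1, j) (Y (i, j))
  rcases Nat.eq_zero_or_pos l with rfl | hl
  · simp
  refine card_mul_le_card_mul (fun X Y => ∃ e, r X Y e) (fun X hX => ?_) fun Y _ => ?_
  · rw [mem_filter] at hX
    obtain ⟨h1, h2⟩ := h X hX.1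
    obtain ⟨j', -, hj⟩ : ∃ j' ∈ univ, l ≤ X (i, j') :=
      exists_le_of_sum_le ⟨j, mem_univ _⟩ (by simpa [mg] using h1)
    obtain ⟨i', -, hi⟩ : ∃ i' ∈ univ, l ≤ X (i', j) :=
      exists_le_of_sum_le ⟨i, mem_univ _⟩ (by simpa [mg] using h2)
    have n1 : j' ≠ j := fun e => by rw [e, hX.2] at hj; omega
    have n2 : i' ≠ i := fun e => by rw [e, hX.2] at hi; omega
    have hZ : ∀ a ≤ l, X - (Pi.single (i, j') a + Pi.single (i', j) a) +
        (Pi.single (i, j') a + Pi.single (i', j) a) = X := fun a ha => by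
      refine tsub_add_cancel_of_le fun e => ?_
      simp only [Pi.add_apply, Pi.single_apply]
      split_ifs with c1 c2 c2
      · exact absurd (Prod.mk.inj (c1.symm.trans c2)).2 n1
      · rw [c1]; omega
      · rw [c2]; omega
      · omega
    let Y : ℕ → Fin m × Fin n → ℕ := fun a => X - (Pi.single (i, j') a + Pi.single (i', j) a) +
      (Pi.single (i, j) a + Pi.single (i', j') a)
    have hY : ∀ a, Y a (i, j) = a := fun a => by simp [Y, hX.2, n1.symm]
    refine le_trans (le_of_eq (card_range l).symm) (card_le_card_of_injOn Y (fun a ha => ?_)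
      fun a _ b _ e => by rw [← hY a, e, hY])
    have ha' := hZ a (mem_range.1 ha).le
    simp only [bipartiteAbove, coe_filter, Set.mem_setOf_eq, mem_TS]
    refine ⟨fun u hu => ?_, (i', j'), ?_⟩
    · rw [← (mem_TS o).1 hX.1 u hu]
      conv_rhs => rw [← ha']
      simp only [Y, mg_add, mg_single, Pi.add_apply]; ring
    · simp only [r, hY]
      conv_lhs => rw [← ha']
      simp only [Y, add_assoc, add_comm, add_left_comm]
  · refine (card_le_card_of_forall_subsingleton (t := univ) (fun X e => r X Y e)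
      (fun X hX => ?_) fun e _ X h1 X' h2 => ?_).trans (by simp)
    · obtain ⟨e, he⟩ := (mem_filter.1 hX).2
      exact ⟨e, mem_univ _, he⟩
    · exact add_right_cancel (add_right_cancel (h1.2.trans h2.2.symm))

theorem TS_step {D H : ℕ} (hm : m ≤ D) (hn : n ≤ D) (hH : 4 * D ^ 3 ≤ H) (s : Fin m ⊕ Fin n → ℕ)
    (i : Fin m) (j : Fin n) (h : ∀ X ∈ TS o (s + Pi.single (.inl i) 1 + Pi.single (.inr j) 1),
      H ≤ mg X (.inl i) ∧ H ≤ mg X (.inr j)) :
    ((TS o s).card : ℝ) ≤ (TS o (s + Pi.single (.inl i) 1 + Pi.single (.inr j) 1)).card ∧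
    ((TS o (s + Pi.single (.inl i) 1 + Pi.single (.inr j) 1)).card : ℝ) ≤
      Real.exp (4 * D ^ 3 / H) * (TS o s).card := by
  have h1 := TS_up o s i j
  set t := s + Pi.single (.inl i) 1 + Pi.single (.inr j) 1
  have hD : 0 < D := lt_of_lt_of_le i.pos hm
  have h2 := TS_zero o t i j (l := H / D) fun X hX =>
    ⟨((Nat.mul_le_mul_right _ hn).trans (Nat.mul_div_le _ _)).trans (h X hX).1,
      ((Nat.mul_le_mul_right _ hm).trans (Nat.mul_div_le _ _)).trans (h X hX).2⟩
  have h3 := card_filter_add_card_filter_not (s := TS o t) fun X => X (i, j) = 0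
  rw [h1] at h3
  refine ⟨by exact_mod_cast (by omega), ?_⟩
  have h4 : D ≤ D ^ 3 := Nat.le_self_pow (by norm_num) _
  have h5 : H ≤ 2 * D * (H / D) := by
    have := Nat.div_add_mod H D
    have := Nat.mod_lt H hD
    have : 1 ≤ H / D := (Nat.one_le_div_iff hD).2 (by omega)
    nlinarith
  set a := ((TS o t).filter fun X => X (i, j) = 0).card
  have h6 : a * H ≤ (TS o t).card * (2 * D ^ 3) :=
    calc a * H ≤ a * (2 * D * (H / D)) := Nat.mul_le_mul_left _ h5
      _ = 2 * D * (a * (H / D)) := by ring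
      _ ≤ 2 * D * ((TS o t).card * (D * D)) :=
        Nat.mul_le_mul_left _ (h2.trans (Nat.mul_le_mul_left _ (Nat.mul_le_mul hm hn)))
      _ = _ := by ring
  have h7 : (TS o t).card * H ≤ (H + 4 * D ^ 3) * (TS o s).card := by
    rw [← h3] at h6 ⊢
    have : a * (2 * D ^ 3) ≤ (TS o s).card * (2 * D ^ 3) := by nlinarith
    nlinarith
  have hH0 : (0 : ℝ) < H := by exact_mod_cast (by omega : 0 < H)
  refine le_trans ?_ (mul_le_mul_of_nonneg_right (Real.add_one_le_exp _) (by positivity))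
  rw [div_add_one hH0.ne', div_mul_eq_mul_div, le_div_iff₀ hH0, add_comm]
  exact_mod_cast h7

def Close (c a b : ℝ) : Prop := a ≤ Real.exp c * b ∧ b ≤ Real.exp c * a

theorem Close.symm {c a b : ℝ} (h : Close c a b) : Close c b a := ⟨h.2, h.1⟩

theorem Close.trans {c c' a b d : ℝ} (h : Close c a b) (h' : Close c' b d) : Close (c + c') a d := by
  rw [Close, Real.exp_add]
  exact ⟨h.1.trans (by rw [mul_assoc]; exact mul_le_mul_of_nonneg_left h'.1 (Real.exp_pos _).le),
    h'.2.trans (by rw [mul_comm (Real.exp c), mul_assoc]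
                   exact mul_le_mul_of_nonneg_left h.2 (Real.exp_pos _).le)⟩

theorem Close.mono {c c' a b : ℝ} (h : Close c a b) (h' : c ≤ c') (ha : 0 ≤ a) (hb : 0 ≤ b) :
    Close c' a b :=
  ⟨h.1.trans (mul_le_mul_of_nonneg_right (Real.exp_le_exp.2 h') hb),
    h.2.trans (mul_le_mul_of_nonneg_right (Real.exp_le_exp.2 h') ha)⟩

theorem TS_unit {D H : ℕ} (hm : m ≤ D) (hn : n ≤ D) (hH : 4 * D ^ 3 ≤ H) (s : Fin m ⊕ Fin n → ℕ)
    {u : Fin m ⊕ Fin n} (hu : u ≠ .inl o) (h1 : H ≤ s u)
    (h2 : D * H + ∑ i ∈ univ.erase o, s (.inl i) ≤ ∑ j, s (.inr j)) :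
    Close (4 * D ^ 3 / H) (TS o s).card (TS o (s + Pi.single u 1)).card := by
  have e1 : (1 : ℝ) ≤ Real.exp (4 * D ^ 3 / H) := Real.one_le_exp (by positivity)
  have hD : H ≤ D * H := Nat.le_mul_of_pos_left _ (lt_of_lt_of_le o.pos hm)
  rcases u with i | j
  · have hi : i ≠ o := fun e => hu (by rw [e])
    have hn0 : 0 < n := by
      rcases Nat.eq_zero_or_pos n with rfl | h
      · have := Nat.pow_pos (n := 3) (lt_of_lt_of_le o.pos hm)
        simp at h2; omega
      · exact h
    obtain ⟨j, -, hj⟩ : ∃ j ∈ univ, H ≤ s (.inr j) :=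
      exists_le_of_sum_le ⟨⟨0, hn0⟩, mem_univ _⟩ (by
        have := Nat.mul_le_mul_right H hn
        simp only [sum_const, card_univ, Fintype.card_fin, smul_eq_mul]; omega)
    have e : TS o (s + Pi.single (.inl i) 1 + Pi.single (.inl o) 1 + Pi.single (.inr j) 1) =
        TS o (s + Pi.single (.inl i) 1 + Pi.single (.inr j) 1) :=
      TS_congr o fun u hu => by simp [Pi.single_apply, hu]
    have a := TS_step o hm hn hH s i j fun X hX => by
      rw [(mem_TS o).1 hX _ hu, (mem_TS o).1 hX _ (by simp)]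
      simp; omega
    have b := TS_step o hm hn hH (s + Pi.single (.inl i) 1) o j fun X hX => by
      have := mg_o o hX
      rw [(mem_TS o).1 hX (.inr j) (by simp)]
      simp [sum_add_distrib, Pi.single_apply, hi] at this ⊢
      omega
    rw [e] at b
    exact ⟨a.1.trans b.2, b.1.trans a.2⟩
  · have e : TS o (s + Pi.single (.inl o) 1 + Pi.single (.inr j) 1) = TS o (s + Pi.single (.inr j) 1) :=
      TS_congr o fun u hu => by simp [Pi.single_apply, hu]
    have b := TS_step o hm hn hH s o j fun X hX => by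
      have := mg_o o hX
      rw [(mem_TS o).1 hX (.inr j) (by simp)]
      simp [sum_add_distrib, Pi.single_apply] at this ⊢
      omega
    rw [e] at b
    exact ⟨b.1.trans (le_mul_of_one_le_left (by positivity) e1), b.2⟩

theorem TS_close {D : ℕ} (hm : m ≤ D) (hn : n ≤ D) (s W H : Fin m ⊕ Fin n → ℕ)
    (hs : ∑ i, s (.inl i) = ∑ j, s (.inr j))
    (hH : ∀ u, u ≠ .inl o → W u ≠ 0 → 4 * D ^ 3 ≤ H u ∧ H u + W u ≤ s u ∧ D * H u + ∑ v, W v ≤ s (.inl o))
    (t : Fin m ⊕ Fin n → ℕ) (ht : ∀ u, u ≠ .inl o → t u ≤ s u + W u ∧ s u ≤ t u + W u) :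
    Close (∑ u, W u * (4 * D ^ 3 / H u : ℝ)) (TS o s).card (TS o t).card := by
  have win : ∀ t : Fin m ⊕ Fin n → ℕ, (∀ u, u ≠ .inl o → t u ≤ s u + W u ∧ s u ≤ t u + W u) →
      s (.inl o) + ∑ i ∈ univ.erase o, t (.inl i) ≤ ∑ j, t (.inr j) + ∑ v, W v := fun t ht => by
    have a1 : ∑ i ∈ univ.erase o, t (.inl i) ≤ ∑ i ∈ univ.erase o, (s (.inl i) + W (.inl i)) :=
      sum_le_sum fun i hi => (ht _ (by simpa using ne_of_mem_erase hi)).1
    have a2 : ∑ j, s (.inr j) ≤ ∑ j, (t (.inr j) + W (.inr j)) := sum_le_sum fun j _ => (ht _ (by simp)).2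
    have a3 := add_sum_erase _ (fun i => s (.inl i)) (mem_univ o)
    have a4 := add_sum_erase _ (fun i => W (.inl i)) (mem_univ o)
    rw [Fintype.sum_sum_type]
    rw [sum_add_distrib] at a1 a2
    omega
  have main : ∀ k, ∀ t : Fin m ⊕ Fin n → ℕ, (∀ u, u ≠ .inl o → t u ≤ s u + W u ∧ s u ≤ t u + W u) →
      ∑ u ∈ univ.erase (.inl o), Nat.dist (t u) (s u) = k →
      Close (∑ u ∈ univ.erase (.inl o), Nat.dist (t u) (s u) * (4 * D ^ 3 / H u : ℝ))
        (TS o s).card (TS o t).card := by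
    intro k
    induction k with
    | zero =>
      intro t _ h
      rw [sum_eq_zero_iff] at h
      rw [TS_congr o (s := t) (t := s) fun u hu => Nat.eq_of_dist_eq_zero (h u (by simp [hu])),
        sum_eq_zero fun u hu => by simp [h u hu]]
      simp [Close]
    | succ k ih =>
      intro t ht h
      obtain ⟨u, hu, h1⟩ := exists_ne_zero_of_sum_ne_zero (h.trans_ne (Nat.succ_ne_zero k))
      have hu' := ne_of_mem_erase hu
      have h2 := ht u hu'
      have h3 : t u ≠ s u := fun e => h1 (by simp [e])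
      obtain ⟨b1, b2, b3⟩ := hH u hu' (by omega)
      have key : ∀ t' : Fin m ⊕ Fin n → ℕ, (∀ v, v ≠ u → t' v = t v) →
          Nat.dist (t' u) (s u) + 1 = Nat.dist (t u) (s u) →
          Close (4 * D ^ 3 / H u) (TS o t').card (TS o t).card →
          Close (∑ u ∈ univ.erase (.inl o), Nat.dist (t u) (s u) * (4 * D ^ 3 / H u : ℝ))
            (TS o s).card (TS o t).card := by
        intro t' c1 c2 c3
        have := (ih t' (fun v hv => ?_) ?_).trans c3
        · convert this using 1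
          rw [← add_sum_erase _ _ hu, ← add_sum_erase _ _ hu, ← c2,
            sum_congr rfl fun v hv => by rw [← c1 v (ne_of_mem_erase hv)]]
          push_cast; ring
        · by_cases e : v = u
          · subst e; simp only [Nat.dist] at c2; omega
          · rw [c1 v e]; exact ht v hv
        · rw [← add_sum_erase _ _ hu] at h ⊢
          rw [sum_congr rfl fun v hv => by rw [c1 v (ne_of_mem_erase hv)]]
          omega
      rcases lt_or_gt_of_ne h3 with h4 | h4
      · refine key (t + Pi.single u 1) (fun v hv => by simp [hv]) (by simp [Nat.dist]; omega)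
          (TS_unit o hm hn b1 t hu' (by omega) ?_).symm
        have := win t ht
        omega
      · obtain ⟨t', rfl⟩ := ex_single t u (by omega)
        simp only [Pi.add_apply, Pi.single_eq_same] at h2 h4
        refine key t' (fun v hv => by simp [hv]) (by simp [Nat.dist]; omega)
          (TS_unit o hm hn b1 t' hu' (by omega) ?_)
        have := win t' fun v hv => by
          by_cases e : v = u
          · subst e; omega
          · simpa [e] using ht v hv
        omega
  refine (main _ t ht rfl).mono ?_ (by positivity) (by positivity)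
  refine le_trans (sum_le_sum fun u hu => ?_)
    (sum_le_sum_of_subset_of_nonneg (erase_subset (Sum.inl o) _) fun _ _ _ => by positivity)
  have := ht u (ne_of_mem_erase hu)
  exact mul_le_mul_of_nonneg_right (by exact_mod_cast (by simp only [Nat.dist]; omega)) (by positivity)

theorem TS_pos (s : Fin m ⊕ Fin n → ℕ) (hs : ∑ i ∈ univ.erase o, s (.inl i) ≤ ∑ j, s (.inr j)) :
    0 < (TS o s).card := by
  induction h : ∑ j, s (.inr j) generalizing s with
  | zero =>
    refine card_pos.2 ⟨0, (mem_TS o).2 fun u hu => ?_⟩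
    rw [h, Nat.le_zero, sum_eq_zero_iff] at hs
    rw [sum_eq_zero_iff] at h
    rcases u with i | j
    · rw [hs i (by simpa using hu)]; simp [mg]
    · rw [h j (by simp)]; simp [mg]
  | succ k ih =>
    obtain ⟨j, -, hj⟩ := exists_ne_zero_of_sum_ne_zero (h.trans_ne (Nat.succ_ne_zero k))
    have key : ∀ (i : Fin m) (t : Fin m ⊕ Fin n → ℕ), TS o s = TS o (t + Pi.single (.inl i) 1 + Pi.single (.inr j) 1) →
        ∑ i ∈ univ.erase o, t (.inl i) ≤ k → ∑ j, t (.inr j) = k → 0 < (TS o s).card := by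
      intro i t e h1 h2
      rw [e]
      exact ((ih t (h2 ▸ h1) h2).trans_eq (TS_up o t i j).symm).trans_le (card_filter_le _ _)
    obtain ⟨s1, rfl⟩ := ex_single s _ hj
    simp [sum_add_distrib, Pi.single_apply] at h hs
    by_cases h0 : ∑ i ∈ univ.erase o, s1 (.inl i) = 0
    · exact key o s1 (TS_congr o fun u hu => by simp [Pi.single_apply, hu]) (by omega) h
    obtain ⟨i, hi, hi'⟩ := exists_ne_zero_of_sum_ne_zero h0
    obtain ⟨s2, rfl⟩ := ex_single s1 _ hi'
    simp [sum_add_distrib, Pi.single_apply, ne_of_mem_erase hi] at h hs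
    exact key i s2 rfl (by omega) h

end Vale.Agent.P328
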