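import Vale.Agent.P328.Lor

/-! The polarized weights with soft margins are Lorentzian. -/

namespace Vale.Agent.P328

open Finset Matrix Vale.Agent.P317

theorem pow_upper {ε : ℝ} (h0 : 0 ≤ ε) (h1 : ε ≤ 1) (n : ℕ) :
    (1 - ε) ^ n ≤ 1 - n * ε + (n * ε) ^ 2 / 2 := by
  induction n with
  | zero => simp
  | succ n ih =>
    rw [pow_succ]
    refine (mul_le_mul_of_nonneg_right ih (by linarith)).trans ?_
    push_cast
    nlinarith [mul_nonneg (sq_nonneg ((n : ℝ) * ε)) h0, sq_nonneg ε]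

theorem pow_lower {ε : ℝ} (h1 : ε ≤ 1) (n : ℕ) : 1 - n * ε ≤ (1 - ε) ^ n := by
  have := one_add_mul_le_pow (a := -ε) (by linarith) n
  simpa [sub_eq_add_neg] using this

theorem core {Cl U : Type} [Fintype Cl] [DecidableEq Cl] [Fintype U] [DecidableEq U] (mar : Cl → U)
    (kk : Cl → ℕ) (K μ : ℕ) (hk : ∀ q, kk q ≤ K) {ε : ℝ} (h0 : 0 ≤ ε) (h1 : ε ≤ 1)
    (c1 : 4 * (K : ℝ) ^ 2 * ε ≤ 1) (c2 : 2 * μ * ε ≤ 1) (c3 : 4 * (K : ℝ) ^ 4 * ε * Fintype.card Cl ≤ μ)
    (a b : Cl → ℝ) (m : Cl → ℕ) (hab : ∀ q, a q ^ 2 ≤ m q * b q) (Y : Cl → Cl → ℝ)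
    (hY : ∀ q q', Y q q' = (if q = q' then (m q : ℝ) / (m q - 1) * (1 - ε) ^ (2 * μ) else 1) *
      if mar q = mar q' then (1 - ε) ^ (2 * kk q * kk q') else 1) :
    ∑ q, ∑ q', Y q q' * (a q * a q') - ∑ q, Y q q * b q ≤ (∑ q, a q) ^ 2 := by
  set G : Cl → Cl → ℝ := fun q q' => if mar q = mar q' then (1 - ε) ^ (2 * kk q * kk q') else 1 with hG
  have hkk : ∀ q q', ((2 * kk q * kk q' : ℕ) : ℝ) * ε ≤ 2 * K ^ 2 * ε := fun q q' => by
    refine mul_le_mul_of_nonneg_right ?_ h0
    have := Nat.mul_le_mul (hk q) (hk q')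
    exact_mod_cast (by nlinarith : 2 * kk q * kk q' ≤ 2 * K ^ 2)
  have e1 : ∑ q, ∑ q', Y q q' * (a q * a q') = ∑ q, ∑ q', G q q' * (a q * a q') +
      ∑ q, (Y q q - G q q) * a q ^ 2 := by
    rw [← sum_add_distrib]
    refine sum_congr rfl fun q _ => ?_
    rw [← add_sum_erase _ _ (mem_univ q), ← add_sum_erase _ _ (mem_univ q),
      sum_congr rfl fun q' hq => by rw [hY, if_neg (ne_of_mem_erase hq).symm, one_mul]]
    ring
  have d1 : ∀ q, (Y q q - G q q) * a q ^ 2 - Y q q * b q ≤ -(μ * ε / 2) * a q ^ 2 := by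
    intro q
    have g1 : 1 / 2 ≤ G q q := by
      simp only [hG, if_true]
      linarith [pow_lower h1 (2 * kk q * kk q), hkk q q]
    have g2 : (1 - ε) ^ (2 * μ) ≤ 1 - μ * ε := by
      have := pow_upper h0 h1 (2 * μ)
      push_cast at this
      nlinarith [mul_nonneg (Nat.cast_nonneg (α := ℝ) μ) h0]
    have g3 : (m q : ℝ) / (m q - 1) * (a q ^ 2 - b q) ≤ a q ^ 2 := by
      rcases Nat.lt_or_ge (m q) 2 with h | h
      · interval_cases (m q) <;> simp [sq_nonneg]
      · have : (2 : ℝ) ≤ m q := by exact_mod_cast h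
        rw [div_mul_eq_mul_div, div_le_iff₀ (by linarith)]
        nlinarith [hab q]
    have g4 : 0 ≤ (1 - ε) ^ (2 * μ) := pow_nonneg (by linarith) _
    have e : Y q q = (m q : ℝ) / (m q - 1) * (1 - ε) ^ (2 * μ) * G q q := by rw [hY, if_pos rfl]
    rw [e]
    have g5 := mul_le_mul_of_nonneg_left g3 g4
    have g6 := mul_le_mul_of_nonneg_right g2 (sq_nonneg (a q))
    have g7 : 0 ≤ μ * ε * a q ^ 2 := by positivity
    nlinarith
  have d2 : ∑ q, ∑ q', G q q' * (a q * a q') ≤ (∑ q, a q) ^ 2 +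
      2 * K ^ 4 * ε ^ 2 * Fintype.card Cl * ∑ q, a q ^ 2 := by
    have f1 : ∀ q q', G q q' * (a q * a q') ≤ a q * a q' - 2 * ε *
        (if mar q = mar q' then kk q * a q * (kk q' * a q') else 0) +
        K ^ 4 * ε ^ 2 * (a q ^ 2 + a q' ^ 2) := by
      intro q q'
      simp only [hG]
      split_ifs
      · have l1 := pow_lower h1 (2 * kk q * kk q')
        have l2 := pow_upper h0 h1 (2 * kk q * kk q')
        have l3 := hkk q q'
        have l4 : 0 ≤ ((2 * kk q * kk q' : ℕ) : ℝ) * ε := by positivity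
        set x := ((2 * kk q * kk q' : ℕ) : ℝ) * ε with hx
        set R := (1 - ε) ^ (2 * kk q * kk q') - (1 - x)
        have r1 : R ≤ 2 * K ^ 4 * ε ^ 2 := by nlinarith
        have r0 : 0 ≤ R := by simp only [R]; linarith
        have : (1 - ε) ^ (2 * kk q * kk q') * (a q * a q') = a q * a q' -
            2 * ε * (kk q * a q * (kk q' * a q')) + R * (a q * a q') := by
          simp only [R, hx]; push_cast; ring
        rw [this]
        nlinarith [sq_nonneg (a q - a q'), sq_nonneg (a q), sq_nonneg (a q')]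
      · have : 0 ≤ (K : ℝ) ^ 4 * ε ^ 2 * (a q ^ 2 + a q' ^ 2) := by positivity
        linarith
    have f2 : 0 ≤ ∑ q, ∑ q', if mar q = mar q' then kk q * a q * (kk q' * a q') else 0 := by
      have : (∑ q, ∑ q', if mar q = mar q' then kk q * a q * (kk q' * a q') else 0) =
          ∑ u, (∑ q, if mar q = u then kk q * a q else 0) ^ 2 := by
        simp only [pow_two, sum_mul_sum]
        rw [sum_comm (s := (univ : Finset U))]
        refine sum_congr rfl fun q _ => ?_
        rw [sum_comm]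
        refine sum_congr rfl fun q' _ => ?_
        rw [sum_eq_single (mar q) (fun u _ h => by rw [if_neg (Ne.symm h), zero_mul]) (by simp)]
        by_cases h : mar q = mar q' <;> simp [h, eq_comm]
      rw [this]; positivity
    refine (sum_le_sum fun q _ => sum_le_sum fun q' _ => f1 q q').trans ?_
    simp only [sum_add_distrib, sum_sub_distrib, ← mul_sum, sum_const, card_univ, nsmul_eq_mul,
      ← sum_mul]
    nlinarith [mul_nonneg h0 f2]
  have d3 := sum_le_sum fun q (_ : q ∈ univ) => d1 q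
  rw [sum_sub_distrib, ← mul_sum] at d3
  have d4 : 0 ≤ ∑ q, a q ^ 2 := by positivity
  rw [e1]
  nlinarith [mul_le_mul_of_nonneg_right (mul_le_mul_of_nonneg_right c3 h0) d4]

structure PS (V Cl U Bk : Type) where
  cls : V → Cl
  mar : Cl → U
  blk : U → Bk
  deg : Bk → ℕ
  kk : Cl → ℕ
  τ : U → ℤ
  M : ℕ
  μ : ℕ
  ε : ℝ

variable {V Cl U Bk : Type} [Fintype V] [DecidableEq V] [Fintype Cl] [DecidableEq Cl] [Fintype U]
  [DecidableEq U] [Fintype Bk] [DecidableEq Bk]

namespace PS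

variable (P : PS V Cl U Bk)

def B (v : V) : Bk := P.blk (P.mar (P.cls v))

def nq (I : Finset V) (q : Cl) : ℕ := (I.filter fun v => P.cls v = q).card

def nb (I : Finset V) (b : Bk) : ℕ := (I.filter fun v => P.B v = b).card

def tu (I : Finset V) (u : U) : ℤ := (∑ q, if P.mar q = u then (P.kk q * P.nq I q : ℤ) else 0) - P.τ u

def eZ (I : Finset V) : ℤ := P.μ * ∑ q, (P.nq I q : ℤ) ^ 2 + ∑ u, P.tu I u ^ 2

noncomputable def w1 (I : Finset V) : ℝ := (∏ q, ((P.M - P.nq I q).factorial : ℝ)) * (1 - P.ε) ^ P.eZ I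

def valid (I : Finset V) : Prop := ∀ b, P.nb I b = P.deg b

open Classical in
noncomputable def w (I : Finset V) : ℝ := if P.valid I then P.w1 I else 0

def δ (F : Finset V) (q : Cl) : ℤ := P.μ * (2 * P.nq F q + 1) + P.kk q * (2 * P.tu F (P.mar q) + P.kk q)

structure OK (K : ℕ) : Prop where
  hM : ∀ q, (univ.filter fun v => P.cls v = q).card = P.M
  hk : ∀ q, P.kk q ≤ K
  h0 : 0 ≤ P.ε
  h1 : P.ε < 1
  c1 : 4 * (K : ℝ) ^ 2 * P.ε ≤ 1
  c2 : 2 * P.μ * P.ε ≤ 1
  c3 : 4 * (K : ℝ) ^ 4 * P.ε * Fintype.card Cl ≤ P.μ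

omit [Fintype V] [Fintype Cl] [Fintype U] [DecidableEq U] [Fintype Bk] [DecidableEq Bk] in
theorem nq_insert {I : Finset V} {s : V} (h : s ∉ I) (q : Cl) :
    P.nq (insert s I) q = P.nq I q + if P.cls s = q then 1 else 0 := by
  rw [nq, filter_insert]
  split_ifs
  · rw [card_insert_of_notMem (by simp [h]), nq]
  · rfl

omit [Fintype V] [Fintype Cl] [Fintype U] [DecidableEq U] [Fintype Bk] [DecidableEq Cl] in
theorem nb_insert {I : Finset V} {s : V} (h : s ∉ I) (b : Bk) :
    P.nb (insert s I) b = P.nb I b + if P.B s = b then 1 else 0 := by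
  rw [nb, filter_insert]
  split_ifs
  · rw [card_insert_of_notMem (by simp [h]), nb]
  · rfl

omit [Fintype V] [Fintype U] [Fintype Bk] [DecidableEq Bk] in
theorem tu_insert {I : Finset V} {s : V} (h : s ∉ I) (u : U) :
    P.tu (insert s I) u = P.tu I u + if P.mar (P.cls s) = u then (P.kk (P.cls s) : ℤ) else 0 := by
  simp only [tu, nq_insert P h]
  rw [sub_add_eq_add_sub]
  congr 1
  rw [← add_sum_erase _ _ (mem_univ (P.cls s)), ← add_sum_erase _ _ (mem_univ (P.cls s)),
    sum_congr rfl fun q hq => by rw [if_neg (ne_of_mem_erase hq).symm, add_zero]]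
  split_ifs <;> simp_all <;> ring

omit [Fintype V] [Fintype Bk] [DecidableEq Bk] in
theorem eZ_insert {I : Finset V} {s : V} (h : s ∉ I) : P.eZ (insert s I) = P.eZ I + P.δ I (P.cls s) := by
  simp only [eZ, δ, nq_insert P h, tu_insert P h]
  rw [← add_sum_erase _ _ (mem_univ (P.cls s)), ← add_sum_erase _ _ (mem_univ (P.cls s)),
    sum_congr rfl fun q hq => by rw [if_neg (ne_of_mem_erase hq).symm, add_zero],
    ← add_sum_erase _ _ (mem_univ (P.mar (P.cls s))), ← add_sum_erase _ _ (mem_univ (P.mar (P.cls s))),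
    sum_congr (s₁ := univ.erase (P.mar (P.cls s))) rfl fun q hq => by
      rw [if_neg (ne_of_mem_erase hq).symm, add_zero]]
  simp only [if_true]
  push_cast; ring

variable {P} {K : ℕ}

omit [Fintype Bk] [DecidableEq Bk] [Fintype U] [DecidableEq U] in
theorem OK.nq_lt (H : P.OK K) {I : Finset V} {s : V} (h : s ∉ I) : P.nq I (P.cls s) < P.M := by
  rw [← H.hM (P.cls s)]
  exact card_lt_card ⟨fun v hv => by simp_all, fun h' => h (mem_filter.1 (h' (by simp))).1⟩

omit [Fintype Bk] [DecidableEq Bk] in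
theorem OK.w1_insert (H : P.OK K) {I : Finset V} {s : V} (h : s ∉ I) :
    P.w1 (insert s I) = P.w1 I * ((1 - P.ε) ^ P.δ I (P.cls s) / (P.M - P.nq I (P.cls s) : ℕ)) := by
  have h1 := H.nq_lt h
  have h2 : (1 - P.ε) ≠ 0 := by linarith [H.h1]
  rw [w1, w1, eZ_insert P h, zpow_add₀ h2, ← mul_prod_erase _ _ (mem_univ (P.cls s)),
    ← mul_prod_erase _ _ (mem_univ (P.cls s)), prod_congr rfl fun q hq => by
      rw [nq_insert P h, if_neg (ne_of_mem_erase hq).symm, add_zero], nq_insert P h, if_pos rfl]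
  obtain ⟨d, hd⟩ : ∃ d, P.M - P.nq I (P.cls s) = d + 1 := ⟨P.M - P.nq I (P.cls s) - 1, by omega⟩
  rw [hd, show P.M - (P.nq I (P.cls s) + 1) = d by omega, Nat.factorial_succ]
  push_cast
  field_simp

omit [Fintype Bk] [DecidableEq Bk] [DecidableEq V] in
theorem OK.w1_pos (H : P.OK K) (I : Finset V) : 0 < P.w1 I :=
  mul_pos (prod_pos fun _ _ => by exact_mod_cast Nat.factorial_pos _) (zpow_pos (by linarith [H.h1]) _)

omit [Fintype Bk] [DecidableEq V] in
theorem OK.w_nonneg (H : P.OK K) (I : Finset V) : 0 ≤ P.w I := by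
  unfold w; split_ifs
  · exact (H.w1_pos I).le
  · exact le_rfl

variable (P) in
noncomputable def Y (F : Finset V) (q q' : Cl) : ℝ :=
  (if q = q' then ((P.M - P.nq F q : ℕ) : ℝ) / ((P.M - P.nq F q : ℕ) - 1) * (1 - P.ε) ^ (2 * P.μ) else 1) *
    if P.mar q = P.mar q' then (1 - P.ε) ^ (2 * P.kk q * P.kk q') else 1

variable (P) in
noncomputable def ell (F : Finset V) (s : V) : ℝ :=
  (1 - P.ε) ^ P.δ F (P.cls s) / (P.M - P.nq F (P.cls s) : ℕ)

omit [Fintype Bk] [DecidableEq Bk] in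
theorem OK.w1_two (H : P.OK K) {F : Finset V} {s t : V} (hs : s ∉ F) (ht : t ∉ F) (h : s ≠ t) :
    P.w1 (insert s (insert t F)) = P.w1 F * (P.Y F (P.cls s) (P.cls t) * (P.ell F s * P.ell F t)) := by
  have h' : s ∉ insert t F := by simp [hs, h]
  have h1 := H.nq_lt h'
  have h2 : (1 - P.ε) ≠ 0 := by linarith [H.h1]
  rw [H.w1_insert h', H.w1_insert ht, mul_assoc, show P.δ (insert t F) (P.cls s) =
    P.μ * (2 * P.nq (insert t F) (P.cls s) + 1) + P.kk (P.cls s) * (2 * P.tu (insert t F) (P.mar (P.cls s)) +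
      P.kk (P.cls s)) from rfl, P.tu_insert ht]
  rw [P.nq_insert ht] at h1 ⊢
  congr 1
  rw [Y, ell, ell, ← zpow_natCast, ← zpow_natCast]
  by_cases hc : P.cls s = P.cls t
  · simp only [hc, if_true] at h1 ⊢
    obtain ⟨d, hd⟩ : ∃ d, P.M - P.nq F (P.cls t) = d + 2 := ⟨P.M - P.nq F (P.cls t) - 2, by omega⟩
    rw [hd, show P.M - (P.nq F (P.cls t) + 1) = d + 1 by omega]
    have e : (P.μ : ℤ) * (2 * ((P.nq F (P.cls t) + 1 : ℕ) : ℤ) + 1) +
        P.kk (P.cls t) * (2 * (P.tu F (P.mar (P.cls t)) + P.kk (P.cls t)) + P.kk (P.cls t)) =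
        ((2 * P.μ : ℕ) : ℤ) + ((2 * P.kk (P.cls t) * P.kk (P.cls t) : ℕ) : ℤ) + P.δ F (P.cls t) := by
      rw [δ]; push_cast; ring
    rw [e, zpow_add₀ h2, zpow_add₀ h2]
    push_cast
    rw [show (d : ℝ) + 2 - 1 = d + 1 by ring]
    field_simp
  · simp only [hc, Ne.symm hc, if_false, add_zero, one_mul]
    by_cases hm : P.mar (P.cls s) = P.mar (P.cls t)
    · simp only [hm, if_true]
      have e : (P.μ : ℤ) * (2 * (P.nq F (P.cls s) : ℤ) + 1) +
          P.kk (P.cls s) * (2 * (P.tu F (P.mar (P.cls t)) + P.kk (P.cls t)) + P.kk (P.cls s)) =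
          ((2 * P.kk (P.cls s) * P.kk (P.cls t) : ℕ) : ℤ) + P.δ F (P.cls s) := by
        rw [δ, hm]; push_cast; ring
      rw [e, zpow_add₀ h2]; ring
    · simp only [hm, Ne.symm hm, if_false, add_zero, one_mul, δ]; ring

omit [Fintype Bk] [DecidableEq Bk] in
theorem OK.form (H : P.OK K) (F T : Finset V) (hT : ∀ s ∈ T, s ∉ F) (z : V → ℝ) :
    ∑ s ∈ T, ∑ t ∈ T, (if s = t then 0 else P.Y F (P.cls s) (P.cls t) * (z s * z t)) ≤
      (∑ s ∈ T, z s) ^ 2 := by
  have := core P.mar P.kk K P.μ H.hk H.h0 H.h1.le H.c1 H.c2 H.c3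
    (fun q => ∑ s ∈ T.filter (P.cls · = q), z s) (fun q => ∑ s ∈ T.filter (P.cls · = q), z s ^ 2)
    (fun q => P.M - P.nq F q) (fun q => ?_) (P.Y F) fun _ _ => rfl
  · rw [sum_fiberwise] at this
    refine le_trans (le_of_eq ?_) this
    have e1 : ∑ q, ∑ q', P.Y F q q' * ((∑ s ∈ T.filter (P.cls · = q), z s) *
        ∑ s ∈ T.filter (P.cls · = q'), z s) = ∑ s ∈ T, ∑ t ∈ T, P.Y F (P.cls s) (P.cls t) * (z s * z t) := by
      rw [← sum_fiberwise T P.cls fun s => ∑ t ∈ T, P.Y F (P.cls s) (P.cls t) * (z s * z t)]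
      refine sum_congr rfl fun q _ => ?_
      simp only [sum_mul_sum]
      simp only [mul_sum]
      rw [sum_comm]
      refine sum_congr rfl fun s hs => ?_
      rw [← sum_fiberwise T P.cls fun t => P.Y F (P.cls s) (P.cls t) * (z s * z t)]
      refine sum_congr rfl fun q' _ => sum_congr rfl fun t ht => ?_
      rw [(mem_filter.1 hs).2, (mem_filter.1 ht).2]
    have e2 : ∑ q, P.Y F q q * ∑ s ∈ T.filter (P.cls · = q), z s ^ 2 =
        ∑ s ∈ T, P.Y F (P.cls s) (P.cls s) * z s ^ 2 := by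
      rw [← sum_fiberwise T P.cls fun s => P.Y F (P.cls s) (P.cls s) * z s ^ 2]
      refine sum_congr rfl fun q _ => ?_
      rw [mul_sum]
      exact sum_congr rfl fun s hs => by rw [(mem_filter.1 hs).2]
    rw [e1, e2, ← sum_sub_distrib]
    refine sum_congr rfl fun s hs => ?_
    rw [← add_sum_erase T (fun t => P.Y F (P.cls s) (P.cls t) * (z s * z t)) hs, ← add_sum_erase _ _ hs,
      sum_congr rfl fun t ht => if_neg (ne_of_mem_erase ht).symm]
    simp only [if_true]; ring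
  · refine sq_sum_le_card_mul_sum_sq.trans (mul_le_mul_of_nonneg_right ?_ (by positivity))
    rw [Nat.cast_le, ← H.hM q, nq, ← card_sdiff_of_subset (by intro v hv; simp_all)]
    refine card_le_card fun v hv => ?_
    simp only [mem_filter, mem_sdiff, mem_univ, true_and, not_and] at hv ⊢
    exact ⟨hv.2, fun h => absurd h (hT v hv.1)⟩

variable (P) in
def cx : Cx V where
  Ind I := ∀ b, P.nb I b ≤ P.deg b
  down I J h hI b := (card_le_card (filter_subset_filter _ h)).trans (hI b)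
  aug I J hI hJ h := by
    rw [card_eq_sum_card_fiberwise (f := P.B) (t := univ) (by simp),
      card_eq_sum_card_fiberwise (f := P.B) (s := J) (t := univ) (by simp)] at h
    obtain ⟨b, -, hb⟩ := exists_lt_of_sum_lt h
    obtain ⟨s, h1, h2⟩ := exists_mem_notMem_of_card_lt_card hb
    simp only [mem_filter, not_and] at h1 h2
    have h3 : s ∉ I := fun h => h2 h h1.2
    refine ⟨s, h1.1, h3, fun b' => ?_⟩
    rw [P.nb_insert h3]
    split_ifs with h4
    · have := hJ b'
      rw [← h4, h1.2] at this ⊢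
      exact le_trans hb this
    · exact hI b'

omit [Fintype V] [Fintype Cl] [DecidableEq Cl] [Fintype U] [DecidableEq U] [DecidableEq V] in
theorem card_eq (I : Finset V) : I.card = ∑ b, P.nb I b :=
  card_eq_sum_card_fiberwise (f := P.B) (t := univ) (by simp)

theorem OK.lor (H : P.OK K) : LorW P.w := by
  classical
  refine lorW_of P.cx (∑ b, P.deg b) _ H.w_nonneg (fun I => ?_) fun F => ?_
  · have : P.valid I ↔ P.cx.Ind I ∧ I.card = ∑ b, P.deg b := by
      rw [card_eq (P := P)]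
      refine ⟨fun h => ⟨fun b => (h b).le, sum_congr rfl fun b _ => h b⟩, fun h b => ?_⟩
      exact (sum_eq_sum_iff_of_le fun b _ => h.1 b).1 h.2 b (mem_univ b)
    rw [← this, w]
    split_ifs with h <;> simp [h, H.w1_pos]
  by_cases h0 : ∃ s t, s ∉ F ∧ t ∉ F ∧ s ≠ t ∧ P.valid (insert s (insert t F))
  swap
  · refine ⟨0, fun c _ => le_of_eq ?_⟩
    have : Qw P.w F = 0 := by
      ext s t
      simp only [Qw, w, Matrix.zero_apply]
      split_ifs with h1 h2
      · exact absurd ⟨s, t, h1.1, h1.2.1, h1.2.2, h2⟩ h0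
      · rfl
      · rfl
    simp [this]
  obtain ⟨s0, t0, a1, a2, a3, a4⟩ := h0
  have hv : ∀ s t, s ∉ F → t ∉ F → s ≠ t → (P.valid (insert s (insert t F)) ↔
      (P.B s = P.B s0 ∧ P.B t = P.B t0) ∨ (P.B s = P.B t0 ∧ P.B t = P.B s0)) := by
    intro s t b1 b2 b3
    simp only [valid, P.nb_insert (show s ∉ insert t F by simp [b1, b3]), P.nb_insert b2,
      P.nb_insert (show s0 ∉ insert t0 F by simp [a1, a3]), P.nb_insert a2] at a4 ⊢
    simp only [← a4]
    constructor
    · intro h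
      have c1 := h (P.B s)
      have c2 := h (P.B t)
      have c3 := h (P.B s0)
      by_cases d1 : P.B s = P.B s0 <;> by_cases d2 : P.B t = P.B t0 <;> by_cases d3 : P.B s = P.B t0 <;>
        by_cases d4 : P.B t = P.B s0 <;> simp_all [eq_comm] <;> split_ifs at * <;> omega
    · rintro (⟨h1, h2⟩ | ⟨h1, h2⟩) b <;> rw [h1, h2]
      ring
  let T : Bk → Finset V := fun b => univ.filter fun s => s ∉ F ∧ P.B s = b
  refine ⟨fun s => if s ∈ T (P.B s0) then P.ell F s else 0, fun c hc => ?_⟩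
  let z : V → ℝ := fun s => P.ell F s * c s
  have hz : ∑ s ∈ T (P.B s0), z s = 0 := by
    rw [← hc, dotProduct, ← sum_subset (subset_univ (T (P.B s0))) fun s _ h => by simp [h]]
    exact sum_congr rfl fun s hs => by simp [hs, z]
  have e : c ⬝ᵥ Qw P.w F *ᵥ c = P.w1 F * ∑ s, ∑ t, if s ∉ F ∧ t ∉ F ∧ s ≠ t ∧
      ((P.B s = P.B s0 ∧ P.B t = P.B t0) ∨ (P.B s = P.B t0 ∧ P.B t = P.B s0)) then
      P.Y F (P.cls s) (P.cls t) * (z s * z t) else 0 := by
    simp only [dotProduct, mulVec, mul_sum, Qw]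
    refine sum_congr rfl fun s _ => sum_congr rfl fun t _ => ?_
    by_cases h : s ∉ F ∧ t ∉ F ∧ s ≠ t
    · rw [if_pos h, w, if_congr (hv s t h.1 h.2.1 h.2.2) rfl rfl, H.w1_two h.1 h.2.1 h.2.2]
      simp only [h, not_false_eq_true, true_and, ne_eq]
      split_ifs
      · simp only [z]; ring
      · ring
    · rw [if_neg h, if_neg (by tauto)]; simp
  rw [e]
  refine mul_nonpos_of_nonneg_of_nonpos (H.w1_pos F).le ?_
  by_cases hb : P.B s0 = P.B t0
  · have := H.form F (T (P.B s0)) (fun s hs => (mem_filter.1 hs).2.1) z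
    rw [hz] at this
    refine le_trans (le_of_eq ?_) (this.trans (by simp))
    simp only [T, sum_filter, ← hb]
    refine sum_congr rfl fun s _ => ?_
    split_ifs with h
    · refine sum_congr rfl fun t _ => ?_
      by_cases h1 : s = t <;> by_cases h2 : t ∉ F ∧ P.B t = P.B s0 <;> simp_all
    · exact sum_eq_zero fun t _ => if_neg (by tauto)
  · refine le_of_eq ?_
    have : ∀ s t, (if s ∉ F ∧ t ∉ F ∧ s ≠ t ∧
        ((P.B s = P.B s0 ∧ P.B t = P.B t0) ∨ (P.B s = P.B t0 ∧ P.B t = P.B s0)) then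
        P.Y F (P.cls s) (P.cls t) * (z s * z t) else 0) =
        (if s ∈ T (P.B s0) then z s else 0) * (if t ∈ T (P.B t0) then z t else 0) +
        (if s ∈ T (P.B t0) then z s else 0) * (if t ∈ T (P.B s0) then z t else 0) := by
      intro s t
      simp only [T, mem_filter, mem_univ, true_and]
      by_cases h : P.B s = P.B t
      · rw [if_neg (by rw [h]; rintro ⟨-, -, -, ⟨h1, h2⟩ | ⟨h1, h2⟩⟩ <;> exact hb (by simp_all))]
        rw [h]
        split_ifs <;> simp_all
      · have h1 : P.mar (P.cls s) ≠ P.mar (P.cls t) := fun e => h (by simp only [B, e])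
        have h2 : P.cls s ≠ P.cls t := fun e => h1 (by rw [e])
        have h3 : s ≠ t := fun e => h2 (by rw [e])
        simp only [Y, h1, h2, if_false, one_mul, ne_eq, h3, not_false_eq_true, true_and]
        by_cases e1 : s ∈ F
        · simp [e1]
        by_cases e2 : t ∈ F
        · simp [e2]
        simp only [e1, e2, not_false_eq_true, true_and]
        by_cases e3 : P.B s = P.B s0
        · have e4 : P.B s ≠ P.B t0 := e3 ▸ hb
          by_cases e5 : P.B t = P.B t0 <;> simp [e3, e5, hb]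
        · by_cases e4 : P.B s = P.B t0 <;> by_cases e5 : P.B t = P.B s0 <;> simp [e3, e4, e5, Ne.symm hb]
    simp only [this, sum_add_distrib, ← mul_sum, ← sum_mul, sum_ite_mem, univ_inter, hz]
    simp

end PS

end Vale.Agent.P328
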